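import Vale.Agent.P068.Null

/-! The fine level: comparing sets inside one class modulo the density zero ideal. -/

open Set Filter

namespace Vale.Agent.P068

namespace Lev

variable {Θ : Type} (L : Lev Θ)

/-- The last excursion of size `1 / k` is upward. -/
def HH (c W : Set Θ) (j : ℝ) (k : ℕ) : Prop :=
  ∃ n, k ≤ n ∧ bb n ≤ k * (L.cnt W n - L.cnt c n - j) ∧
    ∀ n', n ≤ n' → -bb n' ≤ k * (L.cnt W n' - L.cnt c n' - j)

/-- The fine comparison of `W` with the reference `c`, shifted by `j`. -/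
def Fine (c W : Set Θ) (j : ℝ) : Prop := ∃ᶠ k in atTop, L.HH c W j k

variable {L}

lemma HH.of_le {c W W' : Set Θ} {j j' : ℝ} {k : ℕ} (h : L.HH c W j k)
    (hle : ∀ n, k ≤ n → L.cnt W n - j ≤ L.cnt W' n - j') : L.HH c W' j' k := by
  obtain ⟨n, hn, h1, h2⟩ := h
  have hk : (0:ℝ) ≤ k := by positivity
  refine ⟨n, hn, h1.trans ?_, fun n' hn' => (h2 n' hn').trans ?_⟩
  · exact mul_le_mul_of_nonneg_left (by linarith [hle n hn]) hk
  · exact mul_le_mul_of_nonneg_left (by linarith [hle n' (hn.trans hn')]) hk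

lemma Fine.mono {c W W' : Set Θ} {j j' : ℝ} (h : L.Fine c W j) (hW : W ⊆ W') (hj : j' ≤ j) :
    L.Fine c W' j' :=
  Frequently.mono h fun _ hk => hk.of_le fun n _ => by linarith [L.cnt_mono hW n]

lemma Fine.of_insert {c W : Set Θ} {x : Θ} {j : ℝ} (h : L.Fine c (insert x W) (j + 1)) :
    L.Fine c W j :=
  Frequently.mono h fun _ hk => hk.of_le fun n _ => by linarith [L.cnt_insert_le x W n]

lemma Fine.insert {c W : Set Θ} {x : Θ} {j : ℝ} (h : L.Fine c W j) (hx : x ∉ W) :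
    L.Fine c (insert x W) (j + 1) := by
  refine (Frequently.and_eventually h (eventually_ge_atTop (L.lev x))).mono fun k hk => ?_
  exact hk.1.of_le fun n hn => by linarith [L.cnt_insert hx (hk.2.trans hn)]

lemma ev_upper {c W : Set Θ} (h : L.Null (W \ c)) {ε : ℝ} (hε : 0 < ε) :
    ∀ᶠ n in atTop, L.cnt W n - L.cnt c n ≤ ε * bb n := by
  filter_upwards [h.cnt hε] with n hn
  have h1 := L.cnt_union_le c (W \ c) n
  have h2 := L.cnt_mono (Z := W) (W := c ∪ W \ c) (by intro x hx; by_cases h : x ∈ c <;> simp [*]) n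
  linarith

lemma exists_scale {c M : Set Θ} (h1 : L.Null (M \ c)) (h2 : L.Null (c \ M)) :
    ∃ m : ℕ → ℕ, ∀ k, k ≤ m k ∧ ∀ n, m k ≤ n →
      k * (L.cnt M n - L.cnt c n) ≤ bb n ∧ -bb n ≤ k * (L.cnt M n - L.cnt c n) := by
  have : ∀ k : ℕ, ∃ m, k ≤ m ∧ ∀ n, m ≤ n →
      k * (L.cnt M n - L.cnt c n) ≤ bb n ∧ -bb n ≤ k * (L.cnt M n - L.cnt c n) := by
    intro k
    have hε : (0:ℝ) < 1 / (k + 1) := by positivity
    obtain ⟨N, hN⟩ := eventually_atTop.1 ((ev_upper h1 hε).and (ev_upper h2 hε))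
    refine ⟨max k N, le_max_left _ _, fun n hn => ?_⟩
    obtain ⟨a, b⟩ := hN n (le_of_max_le_right hn)
    have hb := bb_pos n
    have hk : (0:ℝ) ≤ k := by positivity
    have e : (k:ℝ) * (1 / (k + 1) * bb n) ≤ bb n := by
      rw [← mul_assoc]
      have : (k:ℝ) * (1 / (k + 1)) ≤ 1 := by
        rw [mul_one_div, div_le_one (by positivity)]; linarith
      nlinarith
    constructor
    · nlinarith [mul_le_mul_of_nonneg_left a hk]
    · nlinarith [mul_le_mul_of_nonneg_left b hk]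
  choose m hm using this
  exact ⟨m, hm⟩

/-- Going up: adding a suitable null part of a positive set makes the set fine-large. -/
lemma up {c M D : Set Θ} (h1 : L.Null (M \ c)) (h2 : L.Null (c \ M)) (hD : ¬ L.Null D)
    (hd : Disjoint M D) : ∃ Z ⊆ D, L.Null Z ∧ L.Fine c (M ∪ Z) 0 := by
  obtain ⟨m, hm⟩ := exists_scale h1 h2
  obtain ⟨Z, hZD, hZ, hev⟩ := thin hD m
  refine ⟨Z, hZD, hZ, Eventually.frequently (hev.mono ?_)⟩
  rintro k ⟨n, hn, hk⟩
  have hc := L.cnt_union (hd.mono_right hZD)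
  have hk0 : (0:ℝ) ≤ k := by positivity
  refine ⟨n, (hm k).1.trans hn, ?_, fun n' hn' => ?_⟩
  · have := ((hm k).2 n hn).2
    rw [hc]; nlinarith
  · have := ((hm k).2 n' (hn.trans hn')).2
    have h3 := mul_nonneg hk0 (L.cnt_nonneg Z n')
    rw [hc]; nlinarith

/-- Going down: removing a suitable null part of a positive set makes the set fine-small. -/
lemma down {c M D : Set Θ} (h1 : L.Null (M \ c)) (h2 : L.Null (c \ M)) (hD : ¬ L.Null D)
    (hd : D ⊆ M) : ∃ Z ⊆ D, L.Null Z ∧ ¬ L.Fine c (M \ Z) 1 := by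
  obtain ⟨m, hm⟩ := exists_scale h1 h2
  obtain ⟨Z, hZD, hZ, hev⟩ := thin hD m
  refine ⟨Z, hZD, hZ, ?_⟩
  unfold Fine
  rw [not_frequently]
  filter_upwards [hev, eventually_ge_atTop 1] with k hk hk1
  obtain ⟨n, hn, hk⟩ := hk
  have hc : ∀ n, L.cnt M n = L.cnt (M \ Z) n + L.cnt Z n := by
    intro n
    rw [← L.cnt_union disjoint_sdiff_left, sdiff_union_of_subset (hZD.trans hd)]
  have hk0 : (1:ℝ) ≤ k := by exact_mod_cast hk1
  rintro ⟨n0, -, h3, h4⟩
  rcases le_total (m k) n0 with h | h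
  · have := ((hm k).2 n0 h).1
    have h5 := mul_nonneg (by linarith : (0:ℝ) ≤ k) (L.cnt_nonneg Z n0)
    rw [hc] at this
    nlinarith
  · have := ((hm k).2 n hn).1
    have h5 := h4 n (h.trans hn)
    rw [hc] at this
    nlinarith

/-- Far out, the lower constraint in `HH` is automatic. -/
lemma ev_lower {c I : Set Θ} (h : L.Null (c \ I)) (k : ℕ) :
    ∃ N, ∀ n, N ≤ n → ∀ J, I ⊆ J → -bb n ≤ k * (L.cnt J n - L.cnt c n - 1) := by
  have hε : (0:ℝ) < 1 / (2 * (k + 1)) := by positivity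
  obtain ⟨N, hN⟩ := eventually_atTop.1 ((ev_upper h hε).and (ev_le_bb k (ε := 1 / 2) (by norm_num)))
  refine ⟨N, fun n hn J hJ => ?_⟩
  obtain ⟨a, b⟩ := hN n hn
  have hb := bb_pos n
  have hk : (0:ℝ) ≤ k := by positivity
  have e : (k:ℝ) * (1 / (2 * (k + 1)) * bb n) ≤ 1 / 2 * bb n := by
    rw [← mul_assoc]
    have : (k:ℝ) * (1 / (2 * (k + 1))) ≤ 1 / 2 := by
      rw [mul_one_div, div_le_iff₀ (by positivity)]; linarith
    nlinarith
  have h1 := L.cnt_mono hJ n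
  nlinarith [mul_le_mul_of_nonneg_left a hk, mul_le_mul_of_nonneg_left h1 hk]

/-- Far out, the upper excursion in `HH` is impossible. -/
lemma ev_upper' {c X : Set Θ} (h : L.Null (X \ c)) (k : ℕ) :
    ∃ N, ∀ n, N ≤ n → ∀ J, J ⊆ X → k * (L.cnt J n - L.cnt c n - 1) < bb n := by
  have hε : (0:ℝ) < 1 / (2 * (k + 1)) := by positivity
  obtain ⟨N, hN⟩ := eventually_atTop.1 (ev_upper h hε)
  refine ⟨N, fun n hn J hJ => ?_⟩
  have a := hN n hn
  have hb := bb_pos n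
  have hk : (0:ℝ) ≤ k := by positivity
  have e : (k:ℝ) * (1 / (2 * (k + 1)) * bb n) ≤ 1 / 2 * bb n := by
    rw [← mul_assoc]
    have : (k:ℝ) * (1 / (2 * (k + 1))) ≤ 1 / 2 := by
      rw [mul_one_div, div_le_iff₀ (by positivity)]; linarith
    nlinarith
  have h1 := L.cnt_mono hJ n
  nlinarith [mul_le_mul_of_nonneg_left a hk, mul_le_mul_of_nonneg_left h1 hk]

/-- `HH` only depends on a bounded part of the set. -/
lemma HH_local {c I X : Set Θ} (hI : L.Null (c \ I)) (hX : L.Null (X \ c)) (k : ℕ) :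
    ∃ N, ∀ J J', I ⊆ J' → J ⊆ X → (∀ θ, L.lev θ ≤ N → (θ ∈ J ↔ θ ∈ J')) →
      L.HH c J 1 k → L.HH c J' 1 k := by
  obtain ⟨N1, h1⟩ := ev_lower hI k
  obtain ⟨N2, h2⟩ := ev_upper' hX k
  refine ⟨max N1 N2, fun J J' hJ' hJ hag => ?_⟩
  rintro ⟨n, hn, h3, h4⟩
  have hn2 : n < N2 := by
    by_contra hcon
    have := h2 n (not_lt.1 hcon) J hJ
    linarith
  have hc : ∀ n, n ≤ max N1 N2 → L.cnt J n = L.cnt J' n := fun n hn =>
    L.cnt_congr fun θ hθ => hag θ (hθ.trans hn)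
  refine ⟨n, hn, ?_, fun n' hn' => ?_⟩
  · rwa [← hc n (le_max_of_le_right hn2.le)]
  · rcases le_total N1 n' with h | h
    · exact h1 n' h J' hJ'
    · rw [← hc n' (le_max_of_le_left h)]
      exact h4 n' hn'

lemma finite_interval {c : Set Θ} (D : Set Θ) (hD : D.Finite) :
    ∀ J, ¬ L.Fine c J 1 → L.Fine c (J ∪ D) 0 →
      ∃ B, J ⊆ B ∧ B ⊆ J ∪ D ∧ L.Fine c B 0 ∧ ¬ L.Fine c B 1 := by
  induction D, hD using Set.Finite.induction_on with
  | empty =>
    intro J h1 h2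
    exact ⟨J, subset_rfl, subset_union_left, by simpa using h2, h1⟩
  | @insert a s _ _ ih =>
    intro J h1 h2
    by_cases h0 : L.Fine c J 0
    · exact ⟨J, subset_rfl, subset_union_left, h0, h1⟩
    · have h3 : ¬ L.Fine c (Insert.insert a J) 1 := fun h => h0 (Fine.of_insert (by simpa using h))
      have e : Insert.insert a J ∪ s = J ∪ Insert.insert a s := by
        rw [insert_union, union_insert]
      obtain ⟨B, hB1, hB2, hB3⟩ := ih _ h3 (by rwa [e])
      exact ⟨B, (subset_insert _ _).trans hB1, e ▸ hB2, hB3⟩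

/-- The interval property inside one class. -/
lemma fine_interval {c I X : Set Θ} (hIX : I ⊆ X) (hI : L.Null (c \ I)) (hX : L.Null (X \ c))
    (h1 : ¬ L.Fine c I 1) (h0 : L.Fine c X 0) :
    ∃ B, I ⊆ B ∧ B ⊆ X ∧ L.Fine c B 0 ∧ ¬ L.Fine c B 1 := by
  unfold Fine at h1
  rw [not_frequently, eventually_atTop] at h1
  obtain ⟨k0, hk0⟩ := h1
  choose N hN using HH_local hI hX
  obtain ⟨J, hIJ, hJ⟩ := zorn_subset_nonempty
    {J | I ⊆ J ∧ J ⊆ X ∧ ∀ k, k0 ≤ k → ¬ L.HH c J 1 k} (by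
      intro ch hch hchain hne
      obtain ⟨J0, hJ0⟩ := hne
      refine ⟨⋃₀ ch, ⟨(hch hJ0).1.trans (subset_sUnion_of_mem hJ0),
        sUnion_subset fun J hJ => (hch hJ).2.1, fun k hk hH => ?_⟩,
        fun s hs => subset_sUnion_of_mem hs⟩
      have hfin : (⋃₀ ch ∩ {θ | L.lev θ ≤ N k}).Finite := (L.fin_le _).inter_of_right _
      obtain ⟨J', hJ', hsub⟩ : ∃ J' ∈ ch, ⋃₀ ch ∩ {θ | L.lev θ ≤ N k} ⊆ J' :=
        hchain.directedOn.exists_mem_subset_of_finite_of_subset_sUnion ⟨J0, hJ0⟩ hfin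
          inter_subset_left
      refine (hch hJ').2.2 k hk (hN k (⋃₀ ch) J' (hch hJ').1
        (sUnion_subset fun J hJ => (hch hJ).2.1) (fun θ hθ => ?_) hH)
      exact ⟨fun h => hsub ⟨h, hθ⟩, fun h => subset_sUnion_of_mem hJ' h⟩)
    I ⟨subset_rfl, hIX, hk0⟩
  obtain ⟨-, hJX, hJH⟩ := hJ.prop
  have hJ1 : ¬ L.Fine c J 1 := by
    unfold Fine
    rw [not_frequently, eventually_atTop]
    exact ⟨k0, hJH⟩
  by_cases hfin : (X \ J).Finite
  · obtain ⟨B, hB1, hB2, hB3⟩ := finite_interval (X \ J) hfin J hJ1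
      (by rwa [union_sdiff_cancel hJX])
    rw [union_sdiff_cancel hJX] at hB2
    exact ⟨B, hIJ.trans hB1, hB2, hB3⟩
  · refine ⟨J, hIJ, hJX, ?_, hJ1⟩
    unfold Fine
    rw [frequently_atTop]
    intro K
    obtain ⟨x, hx, hxl⟩ : ∃ x ∈ X \ J, ¬ L.lev x ≤ (Finset.range K).sup N := by
      by_contra hcon
      push Not at hcon
      exact hfin ((L.fin_le _).subset hcon)
    have hxX : Insert.insert x J ⊆ X := insert_subset hx.1 hJX
    obtain ⟨k, hk, hH⟩ : ∃ k, k0 ≤ k ∧ L.HH c (Insert.insert x J) 1 k := by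
      by_contra hcon
      push Not at hcon
      have := hJ.le_of_ge (y := Insert.insert x J)
        ⟨hIJ.trans (subset_insert _ _), hxX, hcon⟩ (subset_insert _ _)
      exact hx.2 (this (mem_insert _ _))
    refine ⟨k, ?_, hH.of_le fun n _ => by linarith [L.cnt_insert_le x J n]⟩
    by_contra hlt
    have hle : N k ≤ (Finset.range K).sup N :=
      Finset.le_sup (f := N) (Finset.mem_range.2 (not_le.1 hlt))
    refine hJH k hk (hN k _ J hIJ hxX (fun θ hθ => ?_) hH)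
    rw [mem_insert_iff, or_iff_right]
    rintro rfl
    exact hxl (hθ.trans hle)

end Lev

end Vale.Agent.P068
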