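import Vale.Agent.P068.Indep
import Vale.Agent.P068.Fine

/-! The coarse level: a family of pairwise incomparable reference sets. -/

open Set Filter Cardinal

namespace Vale.Agent.P068

/-- The ground set of one vertex: two copies of the base space. -/
abbrev Th : Type := Bool × Om

/-- One of the two parts of a subset of `Th`. -/
def pt (s : Bool) (W : Set Th) : Set Om := {ω | (s, ω) ∈ W}

@[simp] lemma mem_pt {s : Bool} {W : Set Th} {ω : Om} : ω ∈ pt s W ↔ (s, ω) ∈ W := Iff.rfl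

lemma pt_mono (s : Bool) {U W : Set Th} (h : U ⊆ W) : pt s U ⊆ pt s W := fun _ hω => h hω

lemma pt_compl (s : Bool) (W : Set Th) : pt s Wᶜ = (pt s W)ᶜ := rfl

/-- The grading of `Th`. -/
def LT : Lev Th where
  lev p := LO.lev p.2
  fin n := by
    refine ((Set.toFinite (univ : Set Bool)).prod (LO.fin n)).subset ?_
    intro p hp
    exact ⟨mem_univ _, hp⟩

lemma bc_image (s : Bool) (Z : Set Om) (n : ℕ) : LT.bc (Prod.mk s '' Z) n = LO.bc Z n := by
  unfold Lev.bc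
  rw [← ncard_image_of_injective (Z ∩ _) (Prod.mk_right_injective s)]
  congr 2
  ext ⟨s', ω⟩
  constructor
  · rintro ⟨⟨ω', h1, h2⟩, h3⟩
    refine ⟨ω', ⟨h1, ?_⟩, h2⟩
    rw [← h2] at h3
    exact h3
  · rintro ⟨ω', ⟨h1, h3⟩, h2⟩
    rw [← h2]
    exact ⟨⟨ω', h1, rfl⟩, h3⟩

lemma null_image {s : Bool} {Z : Set Om} : LT.Null (Prod.mk s '' Z) ↔ LO.Null Z := by
  unfold Lev.Null
  simp only [bc_image]

lemma null_pt {W : Set Th} (h : LT.Null W) (s : Bool) : LO.Null (pt s W) :=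
  (null_image (s := s)).1 (h.mono (by rintro _ ⟨ω, hω, rfl⟩; exact hω))

lemma null_of_pt {W : Set Th} (h : ∀ s, LO.Null (pt s W)) : LT.Null W := by
  refine (((null_image (s := false)).2 (h false)).union
    ((null_image (s := true)).2 (h true))).mono ?_
  rintro ⟨s, ω⟩ hω
  cases s
  · exact Or.inl ⟨ω, hω, rfl⟩
  · exact Or.inr ⟨ω, hω, rfl⟩

/-- The independent family on `Th`. -/
def JT (x : ℕ → Bool) : Set Th := {p | p.2 ∈ JJ x}

lemma finite_nonsplit' {P : Set Th} (hP : ¬ LT.Null P) :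
    {x | LT.Null (P ∩ JT x) ∨ LT.Null (P \ JT x)}.Finite := by
  obtain ⟨s, hs⟩ : ∃ s, ¬ LO.Null (pt s P) := by
    by_contra hcon
    push Not at hcon
    exact hP (null_of_pt hcon)
  refine (finite_nonsplit hs).subset ?_
  rintro x (h | h)
  · exact Or.inl (null_pt h s)
  · exact Or.inr (null_pt h s)

lemma exists_fresh (F : Set (Set Th)) (hF : Cardinal.mk F < continuum)
    (hP : ∀ P ∈ F, ¬ LT.Null P) :
    ∃ x, KK (JJ x) ∧ ∀ P ∈ F, ¬ LT.Null (P ∩ JT x) ∧ ¬ LT.Null (P \ JT x) := by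
  let bad : Set Th → Set (ℕ → Bool) := fun P => {x | LT.Null (P ∩ JT x) ∨ LT.Null (P \ JT x)}
  have h1 : Cardinal.mk (⋃ P : F, bad P : Set (ℕ → Bool)) < continuum := by
    refine (mk_iUnion_le_sum_mk.trans (sum_le_sum _ (fun _ => ℵ₀) fun P => ?_)).trans_lt ?_
    · exact (finite_nonsplit' (hP P P.2)).lt_aleph0.le
    · rw [sum_const']
      exact mul_lt_of_lt aleph0_le_continuum hF aleph0_lt_continuum
  have h2 : Cardinal.mk (range yy) < continuum :=
    (countable_range yy).le_aleph0.trans_lt aleph0_lt_continuum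
  have h3 : Cardinal.mk (range yy ∪ ⋃ P : F, bad P : Set (ℕ → Bool)) < continuum :=
    (mk_union_le _ _).trans_lt (add_lt_of_lt aleph0_le_continuum h2 h1)
  obtain ⟨x, hx⟩ : ∃ x, x ∉ (range yy ∪ ⋃ P : F, bad P : Set (ℕ → Bool)) := by
    by_contra hcon
    push Not at hcon
    rw [eq_univ_of_forall hcon, mk_univ] at h3
    simp at h3
  simp only [mem_union, mem_iUnion, not_or, not_exists] at hx
  refine ⟨x, KK_JJ hx.1, fun P hP' => ?_⟩
  have := hx.2 ⟨P, hP'⟩
  simpa [bad, not_or] using this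

/-- The rank condition on a reference set. -/
def Star (c : Set Th) : Prop := pt false c ∉ VV ∧ prec (pt true c)ᶜ (pt false c)

lemma KK_pt {W : Set Th} (h : LT.Null W) (s : Bool) : KK (pt s W) := KK_of_null (null_pt h s)

lemma small_of_KK {Z W : Set Om} (hW : W ∉ VV) (h : KK (Z \ W)) : Z ∉ VV := fun hZ => by
  have : W ∪ Z \ W ∈ VV := mem_of_superset hZ (by intro x hx; by_cases h : x ∈ W <;> simp [*])
  exact (Ultrafilter.union_mem_iff.1 this).elim hW h.small

lemma small_of_le {U W : Set Th} {s : Bool} (hW : pt s W ∉ VV) (h : LT.Null (U \ W)) :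
    pt s U ∉ VV := small_of_KK hW (KK_pt h s)

lemma Star.large {c : Set Th} (h : Star c) : pt true c ∈ VV :=
  Ultrafilter.compl_notMem_iff.1 h.2.small

lemma Star.of_le {c W : Set Th} (h : Star c) (hc : LT.Null (c \ W)) (hW : pt false W ∉ VV) :
    Star W :=
  ⟨hW, h.2.mono ((KK_pt hc true).mono (by intro ω hω; simp at hω ⊢; tauto)) (KK_pt hc false)⟩

/-- Admissible requirements. -/
def Adm (I X : Set Th) : Prop :=
  I ⊆ X ∧ (Star X ∨ (pt false I ∉ VV ∧ pt false X ∈ VV ∧ pt true X ∈ VV))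

lemma step_one (C : Set (Set Th)) (hC : Cardinal.mk C < continuum) {I X : Set Th} (hIX : I ⊆ X)
    (hX : Star X) (h : ∀ c ∈ C, ¬ LT.Null (c \ I) ∧ ¬ LT.Null (X \ c)) :
    ∃ w, (I ⊆ w ∧ w ⊆ X) ∧ Star w ∧ ∀ c ∈ C, ¬ LT.Null (c \ w) ∧ ¬ LT.Null (w \ c) := by
  obtain ⟨x, hx, hsp⟩ := exists_fresh ((fun c => c \ I) '' C ∪ (fun c => X \ c) '' C)
    ((mk_union_le _ _).trans_lt (add_lt_of_lt aleph0_le_continuum
      (mk_image_le.trans_lt hC) (mk_image_le.trans_lt hC))) (by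
      rintro _ (⟨c, hc, rfl⟩ | ⟨c, hc, rfl⟩)
      · exact (h c hc).1
      · exact (h c hc).2)
  have hwX : I ∪ X \ JT x ⊆ X := union_subset hIX sdiff_subset
  refine ⟨I ∪ X \ JT x, ⟨subset_union_left, hwX⟩,
    ⟨fun h => hX.1 (mem_of_superset h (pt_mono _ hwX)), hX.2.mono (hx.mono ?_) (hx.mono ?_)⟩,
    fun c hc => ⟨fun hn => ?_, fun hn => ?_⟩⟩
  · intro ω hω
    simp [JT] at hω
    tauto
  · intro ω hω
    simp [JT] at hω
    tauto
  · refine (hsp _ (Or.inl ⟨c, hc, rfl⟩)).1 (hn.mono ?_)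
    intro p hp
    simp at hp ⊢
    tauto
  · refine (hsp _ (Or.inr ⟨c, hc, rfl⟩)).2 (hn.mono ?_)
    intro p hp
    simp at hp ⊢
    tauto

lemma step (C : Set (Set Th)) (hC : Cardinal.mk C < continuum) (hS : ∀ c ∈ C, Star c)
    {I X : Set Th} (hA : Adm I X) (h : ∀ c ∈ C, ¬ LT.Null (c \ I) ∧ ¬ LT.Null (X \ c)) :
    ∃ w, (I ⊆ w ∧ w ⊆ X) ∧ Star w ∧ ∀ c ∈ C, ¬ LT.Null (c \ w) ∧ ¬ LT.Null (w \ c) := by
  obtain ⟨hIX, hX | ⟨hI, hXA, hXB⟩⟩ := hA
  · exact step_one C hC hIX hX h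
  obtain ⟨T0, hT0, hT0s, hpr⟩ :=
    exists_prec_subset (Ultrafilter.compl_notMem_iff.2 hXB) hXA
  obtain ⟨x, hx, hsp⟩ := exists_fresh ((fun c => Prod.mk false '' (pt false X \ pt false c)) '' C)
    (mk_image_le.trans_lt hC) (by
      rintro _ ⟨c, hc, rfl⟩ hn
      exact small_of_KK (hS c hc).1 (KK_of_null (null_image.1 hn)) hXA)
  let T : Set Th := {p | p ∈ I ∨ (p ∈ X ∧ (p.1 = true ∨ p.2 ∈ T0 ∨ p.2 ∈ JJ x))}
  have hTX : T ⊆ X := by
    rintro p (hp | hp)
    · exact hIX hp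
    · exact hp.1
  have hT : Star T := by
    refine ⟨fun hT => ?_, hpr.mono ((KK_of_null Lev.null_empty).mono ?_)
      ((KK_of_null Lev.null_empty).mono ?_)⟩
    · have : pt false I ∪ (T0 ∪ JJ x) ∈ VV := mem_of_superset hT (by
        intro ω hω
        simp [T] at hω ⊢
        tauto)
      rcases Ultrafilter.union_mem_iff.1 this with h1 | h1
      · exact hI h1
      · exact (Ultrafilter.union_mem_iff.1 h1).elim hT0s hx.small
    · intro ω hω
      simp [T] at hω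
      tauto
    · intro ω hω
      have := hT0 hω.1
      simp [T] at hω this
      tauto
  obtain ⟨w, hw, hw'⟩ := step_one C hC (I := I) (X := T) (fun p hp => Or.inl hp) hT
    fun c hc => ⟨(h c hc).1, fun hn => (hsp _ ⟨c, hc, rfl⟩).1 (hn.mono (by
      rintro _ ⟨⟨ω, hω, rfl⟩, h2⟩
      exact ⟨Or.inr ⟨hω.1, Or.inr (Or.inr h2)⟩, hω.2⟩))⟩
  exact ⟨w, ⟨hw.1, hw.2.trans hTX⟩, hw'⟩

theorem exists_family : ∃ C : Set (Set Th), (∀ c ∈ C, Star c) ∧
    (∀ c ∈ C, ∀ c' ∈ C, LT.Null (c \ c') → c = c') ∧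
    ∀ I X, Adm I X → ∃ c ∈ C, LT.Null (c \ I) ∨ LT.Null (X \ c) ∨ (I ⊆ c ∧ c ⊆ X) := by
  classical
  obtain ⟨r, wo, hr⟩ := Cardinal.exists_ord_eq (Set Th × Set Th)
  have hwf : WellFounded r := wo.wf
  have hcard : Cardinal.mk (Set Th × Set Th) ≤ continuum := by
    have h1 : Cardinal.mk (Set Th) ≤ continuum := by
      rw [mk_set, ← two_power_aleph0]
      exact power_le_power_left two_ne_zero mk_le_aleph0
    rw [mk_prod, lift_id, ← continuum_mul_self]
    exact mul_le_mul' h1 h1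
  have hseg : ∀ i, Cardinal.mk {j | r j i} < continuum := fun i =>
    (Cardinal.card_typein_lt i hr).trans_le hcard
  let Good : Set Th × Set Th → Set (Set Th) → Set Th → Prop := fun i C w =>
    (i.1 ⊆ w ∧ w ⊆ i.2) ∧ Star w ∧ ∀ c ∈ C, ¬ LT.Null (c \ w) ∧ ¬ LT.Null (w \ c)
  let g : Set Th × Set Th → Set (Set Th) → Option (Set Th) := fun i C =>
    if h : ∃ w, Good i C w then some h.choose else none
  have hg : ∀ i C w, g i C = some w → Good i C w := by
    intro i C w hw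
    by_cases h : ∃ w, Good i C w
    · simp only [g, dif_pos h, Option.some.injEq] at hw
      exact hw ▸ h.choose_spec
    · simp [g, dif_neg h] at hw
  let f : Set Th × Set Th → Option (Set Th) :=
    hwf.fix fun i prev => g i {c | ∃ j, ∃ h : r j i, prev j h = some c}
  let pv : Set Th × Set Th → Set (Set Th) := fun i => {c | ∃ j, ∃ _ : r j i, f j = some c}
  have hf : ∀ i, f i = g i (pv i) := fun i => hwf.fix_eq _ i
  have hgood : ∀ i w, f i = some w → Good i (pv i) w := fun i w h => hg _ _ _ (hf i ▸ h)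
  refine ⟨{c | ∃ i, f i = some c}, ?_, ?_, ?_⟩
  · rintro c ⟨i, hi⟩
    exact (hgood i c hi).2.1
  · rintro c ⟨i, hi⟩ c' ⟨i', hi'⟩ hn
    rcases trichotomous_of r i i' with h | h | h
    · exact absurd hn ((hgood i' c' hi').2.2 c ⟨i, h, hi⟩).1
    · subst h
      exact Option.some_injective _ (hi.symm.trans hi')
    · exact absurd hn ((hgood i c hi).2.2 c' ⟨i', h, hi'⟩).2
  · intro I X hA
    by_cases h : ∀ c ∈ pv (I, X), ¬ LT.Null (c \ I) ∧ ¬ LT.Null (X \ c)
    · have hpv : Cardinal.mk (pv (I, X)) < continuum := by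
        refine lt_of_le_of_lt ?_ (hseg (I, X))
        refine le_trans (mk_le_mk_of_subset (t := (fun j => (f j).getD ∅) '' {j | r j (I, X)}) ?_)
          mk_image_le
        rintro c ⟨j, hj, hc⟩
        exact ⟨j, hj, by simp [hc]⟩
      have hex : ∃ w, Good (I, X) (pv (I, X)) w :=
        step _ hpv (by rintro c ⟨j, -, hc⟩; exact (hgood j c hc).2.1) hA h
      have : f (I, X) = some hex.choose := by
        rw [hf]; simp only [g, dif_pos hex]
      exact ⟨_, ⟨_, this⟩, Or.inr (Or.inr (hgood _ _ this).1)⟩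
    · push Not at h
      obtain ⟨c, ⟨j, -, hc⟩, h⟩ := h
      refine ⟨c, ⟨j, hc⟩, ?_⟩
      tauto

end Vale.Agent.P068
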