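import Mathlib

/-! Statement definitions for the infinite matroid intersection and packing/covering problem. -/

open Set
open scoped Matroid

namespace Vale.Agent.P068

/-- The contraction `M.X := (M✶ ↾ X)✶` of `M` onto `X`. -/
def contractOnto {α : Type*} (M : Matroid α) (X : Set α) : Matroid α := (M✶ ↾ X)✶

/-- The family `M` of matroids on `E` has a packing/covering partition. -/
def HasPackingCovering {α ι : Type*} (E : Set α) (M : ι → Matroid α) : Prop :=
  ∃ (P C : Set α) (S I : ι → Set α), P ∪ C = E ∧ Disjoint P C ∧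
    (∀ i, S i ⊆ P) ∧ (∀ i, I i ⊆ C) ∧ (∀ i j, i ≠ j → Disjoint (S i) (S j)) ∧
    (∀ i, (M i ↾ P).closure (S i) = P) ∧ (∀ i, (contractOnto (M i) C).Indep (I i)) ∧
    ⋃ i, I i = C

/-- The pair `M`, `N` of matroids on `E` satisfies intersection. -/
def SatisfiesIntersection {α : Type*} (E : Set α) (M N : Matroid α) : Prop :=
  ∃ J JM JN : Set α, M.Indep J ∧ N.Indep J ∧ JM ∪ JN = J ∧ Disjoint JM JN ∧
    M.closure JM ∪ N.closure JN = E

end Vale.Agent.P068
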