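import Mathlib

/-! A well-founded comparison of the small sets of an ultrafilter modulo an ideal. -/

open Set

namespace Vale.Agent.P068

theorem exists_rank {Ω : Type} (V : Ultrafilter Ω) (K : Set Ω → Prop)
    (Kmono : ∀ Z W, K W → Z ⊆ W → K Z) (Kunion : ∀ Z W, K Z → K W → K (Z ∪ W))
    (Kempty : K ∅) (Ksmall : ∀ Z, K Z → Z ∉ V)
    (nonatomic : ∀ S, S ∉ V → ∃ Z, Z ∉ V ∧ ¬ K (Z \ S)) :
    ∃ prec : Set Ω → Set Ω → Prop, WellFounded prec ∧
      (∀ Z Z' Z1 Z1', K (Z1 \ Z) → K (Z' \ Z1') → prec Z Z' → prec Z1 Z1') ∧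
      (∀ Z Z', prec Z Z' → Z ∉ V) ∧
      (∀ T A, T ∉ V → A ∈ V → ∃ T' ⊆ A, T' ∉ V ∧ prec T T') := by
  classical
  let r : Set Ω → Set Ω → Prop := WellOrderingRel
  have hwf : WellFounded r := IsWellFounded.wf
  let Q : Set Ω → Prop := fun a =>
    ∃ g : Set Ω → Set Ω, (∀ b, g b ∉ V) ∧ ∀ T, T ∉ V → ∃ b, r b a ∧ K (T \ g b)
  have hun : ∀ Z W, Z ∉ V → W ∉ V → Z ∪ W ∉ V := fun Z W h1 h2 h =>
    (Ultrafilter.union_mem_iff.1 h).elim h1 h2
  have hsub : ∀ Z W, W ∉ V → Z ⊆ W → Z ∉ V := fun Z W h1 h2 h =>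
    h1 (Filter.mem_of_superset h h2)
  have Ktrans : ∀ A B C, K (A \ B) → K (B \ C) → K (A \ C) := fun A B C h1 h2 =>
    Kmono _ _ (Kunion _ _ h1 h2) (by intro x hx; by_cases h : x ∈ B <;> simp_all)
  obtain ⟨g, hg, hcof⟩ : ∃ g : Set Ω → Set Ω, (∀ b, g b ∉ V) ∧
      ∀ T, T ∉ V → ∃ b, ¬ Q b ∧ K (T \ g b) := by
    by_cases h : ∃ a, Q a
    · obtain ⟨a, ⟨g, hg, hc⟩, hmin⟩ := hwf.has_min {a | Q a} h
      refine ⟨g, hg, fun T hT => ?_⟩
      obtain ⟨b, hb, hK⟩ := hc T hT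
      exact ⟨b, fun hQ => hmin b hQ hb, hK⟩
    · refine ⟨fun T => if T ∈ V then ∅ else T, fun b => ?_, fun T hT => ⟨T, fun hQ => h ⟨T, hQ⟩, ?_⟩⟩
      · by_cases hb : b ∈ V
        · simp only [hb, if_true]; exact Ultrafilter.empty_notMem
        · simp only [hb, if_false]; exact not_false
      · simp only [hT, if_false, sdiff_self]; exact Kempty
  refine ⟨fun T T' => ∃ a, K (T \ g a) ∧ ∀ a', K (T' \ g a') → r a a', ?_, ?_, ?_, ?_⟩
  · have key : ∀ a, ∀ T', K (T' \ g a) →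
        Acc (fun T T' => ∃ a, K (T \ g a) ∧ ∀ a', K (T' \ g a') → r a a') T' := by
      intro a
      induction a using hwf.induction with
      | _ a ih =>
        intro T' hT'
        refine Acc.intro _ ?_
        rintro T ⟨a0, h1, h2⟩
        exact ih a0 (h2 a hT') T h1
    refine ⟨fun T' => Acc.intro _ ?_⟩
    rintro T ⟨a0, h1, -⟩
    exact key a0 T h1
  · rintro Z Z' Z1 Z1' h1 h2 ⟨a, h3, h4⟩
    exact ⟨a, Ktrans _ _ _ h1 h3, fun a' h5 => h4 a' (Ktrans _ _ _ h2 h5)⟩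
  · rintro Z Z' ⟨a, h3, -⟩
    exact hsub _ _ (hun _ _ (Ksmall _ h3) (hg a)) (by intro x hx; by_cases h : x ∈ g a <;> simp [*])
  · intro T A hT hA
    obtain ⟨a, hQ, hK⟩ := hcof T hT
    by_contra hcon
    push Not at hcon
    have hAc : Aᶜ ∉ V := fun h => (Ultrafilter.compl_mem_iff_notMem.1 h) hA
    refine hQ ⟨fun b => g b ∪ Aᶜ, fun b => hun _ _ (hg b) hAc, fun T'' hT'' => ?_⟩
    obtain ⟨Z, hZ, hZK⟩ := nonatomic _ (hun _ _ (hg a) hAc)
    obtain ⟨a', h1, h2⟩ := hcon ((T'' ∪ Z) ∩ A) inter_subset_right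
      (hsub _ _ (hun _ _ hT'' hZ) inter_subset_left) a hK
    refine ⟨a', ?_, Kmono _ _ h1 ?_⟩
    · rcases trichotomous_of r a a' with h | h | h
      · exact absurd h h2
      · subst h
        refine absurd (Kmono _ _ h1 ?_) hZK
        intro x hx
        simp only [mem_sdiff, mem_union, mem_compl_iff, not_or, not_not, mem_inter_iff] at hx ⊢
        tauto
      · exact h
    · intro x hx
      simp only [mem_sdiff, mem_union, mem_compl_iff, not_or, not_not, mem_inter_iff] at hx ⊢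
      tauto

end Vale.Agent.P068
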