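import Vale.Agent.P068.Null
import Vale.Agent.P068.Rank

/-! The base space, its independent family and the ultrafilters on it. -/

open Set Filter

namespace Vale.Agent.P068

/-- The base space. -/
abbrev Om : Type := Σ i : ℕ, ((Fin i → Bool) → Bool)

/-- The grading of the base space. -/
def LO : Lev Om where
  lev := Sigma.fst
  fin n := by
    refine (Set.finite_range (Sigma.mk (β := fun i => (Fin i → Bool) → Bool) n)).subset ?_
    rintro ⟨i, f⟩ (rfl : i = n)
    exact ⟨f, rfl⟩

/-- Restriction of a branch. -/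
def res (n : ℕ) (x : ℕ → Bool) : Fin n → Bool := fun i => x i

/-- The independent family. -/
def JJ (x : ℕ → Bool) : Set Om := {ω | ω.2 (res ω.1 x) = true}

/-- A pattern of the independent family. -/
def Pat (G : Finset (ℕ → Bool)) (σ : (ℕ → Bool) → Bool) : Set Om :=
  {ω | ∀ x ∈ G, ω.2 (res ω.1 x) = σ x}

lemma bc_LO (Z : Set Om) (n : ℕ) :
    LO.bc Z n = ({f : (Fin n → Bool) → Bool | (⟨n, f⟩ : Om) ∈ Z}.ncard : ℝ) := by
  unfold Lev.bc
  rw [← ncard_image_of_injective _ (sigma_mk_injective (β := fun i => (Fin i → Bool) → Bool) (i := n))]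
  congr 2
  ext ⟨i, f⟩
  constructor
  · rintro ⟨h1, (rfl : i = n)⟩
    exact ⟨f, h1, rfl⟩
  · rintro ⟨f', h1, h2⟩
    rw [← h2]
    exact ⟨h1, rfl⟩

lemma card_fixed {P : Type} [Fintype P] [DecidableEq P] (T : Finset P) (τ : P → Bool) :
    {f : P → Bool | ∀ p ∈ T, f p = τ p}.ncard * 2 ^ T.card = 2 ^ Fintype.card P := by
  have : {f : P → Bool | ∀ p ∈ T, f p = τ p} =
      ↑(Fintype.piFinset fun p => if p ∈ T then {τ p} else (Finset.univ : Finset Bool)) := by
    ext f
    simp only [mem_ofPred_eq, Finset.mem_coe, Fintype.mem_piFinset]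
    refine forall_congr' fun p => ?_
    by_cases h : p ∈ T <;> simp [h]
  rw [this, ncard_coe_finset, Fintype.card_piFinset]
  have h2 : ∀ p, (if p ∈ T then {τ p} else (Finset.univ : Finset Bool)).card =
      if p ∈ T then 1 else 2 := by
    intro p; split_ifs <;> simp
  simp_rw [h2]
  rw [Finset.prod_ite]
  simp only [Finset.prod_const_one, Finset.prod_const, one_mul, ← pow_add]
  congr 1
  have := Finset.card_filter_add_card_filter_not (s := (Finset.univ : Finset P)) (fun p => p ∈ T)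
  have h3 : Finset.univ.filter (fun p => p ∈ T) = T := by ext; simp
  rw [h3, Finset.card_univ] at this
  omega

lemma ev_injOn (G : Finset (ℕ → Bool)) : ∀ᶠ n in atTop, InjOn (res n) G := by
  have : ∀ x ∈ G, ∀ y ∈ G, ∀ᶠ n in atTop, res n x = res n y → x = y := by
    intro x _ y _
    by_cases h : x = y
    · exact Eventually.of_forall fun _ _ => h
    · obtain ⟨i, hi⟩ := Function.ne_iff.1 h
      filter_upwards [eventually_gt_atTop i] with n hn he
      exact absurd (congrFun he ⟨i, hn⟩) hi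
  have h2 := (G.eventually_all (l := atTop)
    (p := fun x n => ∀ y ∈ G, res n x = res n y → x = y)).2
    fun x hx => (G.eventually_all (p := fun y n => res n x = res n y → x = y)).2 (this x hx)
  filter_upwards [h2] with n hn x hx y hy he using hn x hx y hy he

lemma bc_Pat (G : Finset (ℕ → Bool)) (σ : (ℕ → Bool) → Bool) :
    ∀ᶠ n in atTop, LO.bc (Pat G σ) n * 2 ^ G.card = bb n := by
  classical
  filter_upwards [ev_injOn G] with n hn
  have hinj : Function.Injective (fun x : G => res n x) := fun x y h =>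
    Subtype.ext (hn x.2 y.2 h)
  let τ : (Fin n → Bool) → Bool :=
    Function.extend (fun x : G => res n x) (fun x => σ x) (fun _ => false)
  have hτ : ∀ x ∈ G, τ (res n x) = σ x := fun x hx => hinj.extend_apply _ _ ⟨x, hx⟩
  have h := card_fixed (G.image (res n)) τ
  rw [Finset.card_image_of_injOn hn] at h
  rw [bc_LO]
  have e : {f : (Fin n → Bool) → Bool | (⟨n, f⟩ : Om) ∈ Pat G σ} =
      {f | ∀ p ∈ G.image (res n), f p = τ p} := by
    ext f
    simp only [Pat, mem_ofPred_eq, Finset.mem_image, forall_exists_index, and_imp,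
      forall_apply_eq_imp_iff₂]
    exact forall₂_congr fun x hx => by rw [hτ x hx]
  rw [e]
  unfold bb
  have : Fintype.card (Fin n → Bool) = 2 ^ n := by simp
  rw [this] at h
  exact_mod_cast h

lemma not_null_Pat (G : Finset (ℕ → Bool)) (σ : (ℕ → Bool) → Bool) : ¬ LO.Null (Pat G σ) := by
  intro h
  have hp : (0:ℝ) < 2 ^ G.card := by positivity
  obtain ⟨n, h1, h2⟩ := ((h (1 / (2 * 2 ^ G.card)) (by positivity)).and (bc_Pat G σ)).exists
  have hb := bb_pos n
  have : LO.bc (Pat G σ) n * 2 ^ G.card ≤ 1 / (2 * 2 ^ G.card) * bb n * 2 ^ G.card := by gcongr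
  have e : 1 / (2 * 2 ^ G.card) * bb n * 2 ^ G.card = bb n / 2 := by field_simp
  linarith

lemma null_biUnion {Θ ι : Type} {L : Lev Θ} (G : Finset ι) (Z : ι → Set Θ)
    (h : ∀ x ∈ G, L.Null (Z x)) : L.Null (⋃ x ∈ G, Z x) := by
  classical
  induction G using Finset.induction_on with
  | empty => simpa using Lev.null_empty
  | insert a s _ ih =>
    rw [Finset.set_biUnion_insert]
    exact (h a (Finset.mem_insert_self _ _)).union
      (ih fun x hx => h x (Finset.mem_insert_of_mem hx))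

/-- A positive set is split by all but finitely many members of the independent family. -/
lemma finite_nonsplit {P : Set Om} (hP : ¬ LO.Null P) :
    {x | LO.Null (P ∩ JJ x) ∨ LO.Null (P \ JJ x)}.Finite := by
  classical
  by_contra hinf
  refine hP fun ε hε => ?_
  obtain ⟨m, hm⟩ := exists_pow_lt_of_lt_one (half_pos hε) (by norm_num : (1 / 2 : ℝ) < 1)
  obtain ⟨G, hG, hc⟩ := Set.Infinite.exists_subset_card_eq hinf m
  let σ : (ℕ → Bool) → Bool := fun x => if LO.Null (P ∩ JJ x) then false else true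
  let Z : (ℕ → Bool) → Set Om := fun x => if LO.Null (P ∩ JJ x) then P ∩ JJ x else P \ JJ x
  have hZ : LO.Null (⋃ x ∈ G, Z x) := null_biUnion G Z fun x hx => by
    by_cases h : LO.Null (P ∩ JJ x)
    · simp [Z, h]
    · simpa [Z, h] using (hG hx).resolve_left h
  have hsub : P ⊆ Pat G σ ∪ ⋃ x ∈ G, Z x := by
    intro ω hω
    by_cases h : ω ∈ Pat G σ
    · exact Or.inl h
    · right
      simp only [Pat, mem_ofPred_eq, not_forall] at h
      obtain ⟨x, hx, hne⟩ := h
      simp only [mem_iUnion]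
      refine ⟨x, hx, ?_⟩
      by_cases h' : LO.Null (P ∩ JJ x)
      · simp only [Z, σ, h', if_true] at hne ⊢
        exact ⟨hω, by simpa [JJ] using hne⟩
      · simp only [Z, σ, h', if_false] at hne ⊢
        exact ⟨hω, by simpa [JJ] using hne⟩
  filter_upwards [hZ (ε / 2) (half_pos hε), bc_Pat G σ] with n h1 h2
  have h3 := LO.bc_mono hsub n
  have h4 := LO.bc_union_le (Pat G σ) (⋃ x ∈ G, Z x) n
  have h5 : LO.bc (Pat G σ) n = (1 / 2) ^ m * bb n := by
    rw [← h2, hc, one_div, inv_pow]; field_simp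
  have hb := bb_pos n
  nlinarith

/-- The filter of sets containing almost all of `JJ z` outside finitely many other members. -/
def FF (z : ℕ → Bool) : Filter Om where
  sets := {Z | ∃ G : Finset (ℕ → Bool), z ∉ G ∧ LO.Null ((JJ z \ Z) \ ⋃ x ∈ G, JJ x)}
  univ_sets := ⟨∅, by simp, by simpa using Lev.null_empty⟩
  sets_of_superset := by
    rintro Z W ⟨G, h1, h2⟩ h
    exact ⟨G, h1, h2.mono (sdiff_subset_sdiff_left (sdiff_subset_sdiff_right h))⟩
  inter_sets := by
    classical
    rintro Z W ⟨G, h1, h2⟩ ⟨G', h1', h2'⟩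
    refine ⟨G ∪ G', by simp [h1, h1'], (h2.union h2').mono ?_⟩
    intro ω hω
    simp only [Set.mem_sdiff, mem_inter_iff, Finset.mem_union, mem_iUnion, not_exists, mem_union]
      at hω ⊢
    by_cases h : ω ∈ Z
    · exact Or.inr ⟨⟨hω.1.1, fun h' => hω.1.2 ⟨h, h'⟩⟩, fun x hx => hω.2 x (Or.inr hx)⟩
    · exact Or.inl ⟨⟨hω.1.1, h⟩, fun x hx => hω.2 x (Or.inl hx)⟩

instance FF_neBot (z : ℕ → Bool) : (FF z).NeBot := by
  classical
  rw [neBot_iff, Ne, ← empty_mem_iff_bot]
  rintro ⟨G, h1, h2⟩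
  refine not_null_Pat (insert z G) (fun x => decide (x = z)) (h2.mono ?_)
  intro ω hω
  refine ⟨⟨by simpa [JJ] using hω z (Finset.mem_insert_self _ _), by simp⟩, ?_⟩
  simp only [mem_iUnion, not_exists]
  intro x hx hJ
  have := hω x (Finset.mem_insert_of_mem hx)
  have hne : x ≠ z := fun h => h1 (h ▸ hx)
  simp only [JJ, mem_ofPred_eq] at hJ
  simp [hJ, hne] at this

/-- An ultrafilter concentrated on `JJ z`. -/
noncomputable def UU (z : ℕ → Bool) : Ultrafilter Om := Ultrafilter.of (FF z)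

lemma mem_UU {z : ℕ → Bool} {Z : Set Om} (h : Z ∈ FF z) : Z ∈ UU z :=
  Ultrafilter.of_le (FF z) h

lemma JJ_mem_UU (z : ℕ → Bool) : JJ z ∈ UU z :=
  mem_UU ⟨∅, by simp, by simpa using Lev.null_empty⟩

lemma JJ_notMem_UU {x z : ℕ → Bool} (h : x ≠ z) : JJ x ∉ UU z := by
  rw [← Ultrafilter.compl_mem_iff_notMem]
  refine mem_UU ⟨{x}, by simpa using h.symm, Lev.null_empty.mono ?_⟩
  intro ω hω
  simp at hω
  tauto

lemma null_notMem_UU {Z : Set Om} (h : LO.Null Z) (z : ℕ → Bool) : Z ∉ UU z := by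
  rw [← Ultrafilter.compl_mem_iff_notMem]
  refine mem_UU ⟨∅, by simp, h.mono ?_⟩
  intro ω hω
  simp at hω
  tauto

/-- The reserved branches. -/
def yy (m : ℕ) : ℕ → Bool := fun i => decide (i = m)

lemma yy_injective : Function.Injective yy := by
  intro a b h
  have := congrFun h a
  simpa [yy] using this

/-- The invisible sets. -/
def KK (Z : Set Om) : Prop := ∀ m, Z ∉ UU (yy m)

/-- The main ultrafilter. -/
noncomputable def VV : Ultrafilter Om := (hyperfilter ℕ).bind fun m => UU (yy m)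

lemma mem_VV {Z : Set Om} : Z ∈ VV ↔ {m | Z ∈ UU (yy m)} ∈ hyperfilter ℕ :=
  Filter.mem_bind'

lemma KK.mono {Z W : Set Om} (h : KK W) (hZ : Z ⊆ W) : KK Z := fun m hm =>
  h m (Filter.mem_of_superset hm hZ)

lemma KK.union {Z W : Set Om} (h : KK Z) (h' : KK W) : KK (Z ∪ W) := fun m hm =>
  (Ultrafilter.union_mem_iff.1 hm).elim (h m) (h' m)

lemma KK_of_null {Z : Set Om} (h : LO.Null Z) : KK Z := fun _ => null_notMem_UU h _

lemma KK_JJ {x : ℕ → Bool} (hx : x ∉ range yy) : KK (JJ x) := fun m =>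
  JJ_notMem_UU fun h => hx ⟨m, h.symm⟩

lemma KK.small {Z : Set Om} (h : KK Z) : Z ∉ VV := by
  rw [mem_VV]
  have : {m | Z ∈ UU (yy m)} = ∅ := by
    ext m; simpa using h m
  rw [this]
  exact Ultrafilter.empty_notMem

lemma nonatomic (S : Set Om) (hS : S ∉ VV) : ∃ Z, Z ∉ VV ∧ ¬ KK (Z \ S) := by
  obtain ⟨m, hm⟩ : ∃ m, S ∉ UU (yy m) := by
    by_contra hcon
    push Not at hcon
    refine hS (mem_VV.2 ?_)
    have : {m | S ∈ UU (yy m)} = univ := by ext m; simpa using hcon m
    rw [this]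
    exact Filter.univ_mem
  refine ⟨JJ (yy m), ?_, fun h => h m ?_⟩
  · rw [mem_VV]
    refine Set.Finite.notMem_hyperfilter ((finite_singleton m).subset ?_)
    intro m' hm'
    by_contra hne
    exact JJ_notMem_UU (fun h => hne (yy_injective h).symm) hm'
  · exact Filter.inter_mem (JJ_mem_UU _) (Ultrafilter.compl_mem_iff_notMem.2 hm)

theorem exists_prec : ∃ prec : Set Om → Set Om → Prop, WellFounded prec ∧
      (∀ Z Z' Z1 Z1', KK (Z1 \ Z) → KK (Z' \ Z1') → prec Z Z' → prec Z1 Z1') ∧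
      (∀ Z Z', prec Z Z' → Z ∉ VV) ∧
      (∀ T A, T ∉ VV → A ∈ VV → ∃ T' ⊆ A, T' ∉ VV ∧ prec T T') :=
  exists_rank VV KK (fun _ _ h => h.mono) (fun _ _ => KK.union) (KK_of_null Lev.null_empty)
    (fun _ => KK.small) nonatomic

/-- The well-founded comparison of small sets. -/
def prec : Set Om → Set Om → Prop := exists_prec.choose

lemma prec_wf : WellFounded prec := exists_prec.choose_spec.1

lemma prec.mono {Z Z' Z1 Z1' : Set Om} (h : prec Z Z') (h1 : KK (Z1 \ Z)) (h2 : KK (Z' \ Z1')) :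
    prec Z1 Z1' := exists_prec.choose_spec.2.1 _ _ _ _ h1 h2 h

lemma prec.small {Z Z' : Set Om} (h : prec Z Z') : Z ∉ VV := exists_prec.choose_spec.2.2.1 _ _ h

lemma exists_prec_subset {T A : Set Om} (hT : T ∉ VV) (hA : A ∈ VV) :
    ∃ T' ⊆ A, T' ∉ VV ∧ prec T T' := exists_prec.choose_spec.2.2.2 _ _ hT hA

end Vale.Agent.P068
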