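import Mathlib

/-! Density zero ideal on a countable set graded by finite levels. -/

open Set Filter

namespace Vale.Agent.P068

/-- The normaliser `2 ^ 2 ^ n`. -/
noncomputable def bb (n : ℕ) : ℝ := 2 ^ (2 ^ n)

lemma bb_pos (n : ℕ) : 0 < bb n := by unfold bb; positivity

lemma two_le_bb (n : ℕ) : 2 ≤ bb n := by
  unfold bb
  calc (2:ℝ) = 2 ^ 1 := by norm_num
    _ ≤ 2 ^ (2 ^ n) := pow_le_pow_right₀ (by norm_num) Nat.one_le_two_pow

lemma bb_succ (n : ℕ) : 2 * bb n ≤ bb (n + 1) := by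
  have h : bb (n + 1) = bb n * bb n := by
    unfold bb; rw [← pow_add]; congr 1; ring
  rw [h]; nlinarith [two_le_bb n]

lemma le_bb (n : ℕ) : (n : ℝ) ≤ bb n := by
  induction n with
  | zero => simpa using (bb_pos 0).le
  | succ n ih => have := bb_succ n; have := two_le_bb n; push_cast; linarith

lemma bb_sum (n : ℕ) : ∑ i ∈ Finset.range (n + 1), bb i ≤ 2 * bb n := by
  induction n with
  | zero => simp; linarith [bb_pos 0]
  | succ n ih => rw [Finset.sum_range_succ]; linarith [bb_succ n]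

lemma ev_le_bb (C : ℝ) {ε : ℝ} (hε : 0 < ε) : ∀ᶠ n in atTop, C ≤ ε * bb n := by
  obtain ⟨N, hN⟩ := exists_nat_ge (C / ε)
  filter_upwards [eventually_ge_atTop N] with n hn
  have h1 : (N : ℝ) ≤ n := by exact_mod_cast hn
  have h2 := le_bb n
  rw [div_le_iff₀ hε] at hN
  nlinarith

/-- A grading with finite levels. -/
structure Lev (Θ : Type) where
  lev : Θ → ℕ
  fin : ∀ n, {θ | lev θ = n}.Finite

variable {Θ : Type} (L : Lev Θ)

lemma Lev.fin_le (n : ℕ) : {θ | L.lev θ ≤ n}.Finite := by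
  have : {θ | L.lev θ ≤ n} = ⋃ i ∈ Set.Iic n, {θ | L.lev θ = i} := by
    ext θ; simp
  rw [this]
  exact (Set.finite_Iic n).biUnion fun i _ => L.fin i

/-- Number of points of `Z` on level `n`. -/
noncomputable def Lev.bc (Z : Set Θ) (n : ℕ) : ℝ := ((Z ∩ {θ | L.lev θ = n}).ncard : ℝ)

/-- Number of points of `Z` on levels up to `n`. -/
noncomputable def Lev.cnt (Z : Set Θ) (n : ℕ) : ℝ := ((Z ∩ {θ | L.lev θ ≤ n}).ncard : ℝ)

/-- Density zero sets. -/
def Lev.Null (Z : Set Θ) : Prop := ∀ ε : ℝ, 0 < ε → ∀ᶠ n in atTop, L.bc Z n ≤ ε * bb n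

namespace Lev

lemma bc_nonneg (Z : Set Θ) (n : ℕ) : 0 ≤ L.bc Z n := by unfold bc; positivity

lemma cnt_nonneg (Z : Set Θ) (n : ℕ) : 0 ≤ L.cnt Z n := by unfold cnt; positivity

lemma bc_mono {Z W : Set Θ} (h : Z ⊆ W) (n : ℕ) : L.bc Z n ≤ L.bc W n := by
  unfold bc
  exact_mod_cast ncard_le_ncard (inter_subset_inter_left _ h) ((L.fin n).inter_of_right _)

lemma cnt_mono {Z W : Set Θ} (h : Z ⊆ W) (n : ℕ) : L.cnt Z n ≤ L.cnt W n := by
  unfold cnt
  exact_mod_cast ncard_le_ncard (inter_subset_inter_left _ h) ((L.fin_le n).inter_of_right _)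

lemma bc_union_le (Z W : Set Θ) (n : ℕ) : L.bc (Z ∪ W) n ≤ L.bc Z n + L.bc W n := by
  unfold bc
  rw [union_inter_distrib_right]
  exact_mod_cast ncard_union_le _ _

lemma cnt_union_le (Z W : Set Θ) (n : ℕ) : L.cnt (Z ∪ W) n ≤ L.cnt Z n + L.cnt W n := by
  unfold cnt
  rw [union_inter_distrib_right]
  exact_mod_cast ncard_union_le _ _

lemma cnt_union {Z W : Set Θ} (h : Disjoint Z W) (n : ℕ) :
    L.cnt (Z ∪ W) n = L.cnt Z n + L.cnt W n := by
  unfold cnt
  rw [union_inter_distrib_right]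
  exact_mod_cast ncard_union_eq (h.mono inter_subset_left inter_subset_left)
    ((L.fin_le n).inter_of_right _) ((L.fin_le n).inter_of_right _)

lemma bc_le_cnt (Z : Set Θ) (n : ℕ) : L.bc Z n ≤ L.cnt Z n := by
  unfold bc cnt
  exact_mod_cast ncard_le_ncard (inter_subset_inter_right _ fun θ (h : L.lev θ = n) => h.le)
    ((L.fin_le n).inter_of_right _)

lemma cnt_congr {Z W : Set Θ} {n : ℕ} (h : ∀ θ, L.lev θ ≤ n → (θ ∈ Z ↔ θ ∈ W)) :
    L.cnt Z n = L.cnt W n := by
  unfold cnt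
  congr 2
  ext θ
  exact ⟨fun h' => ⟨(h θ h'.2).1 h'.1, h'.2⟩, fun h' => ⟨(h θ h'.2).2 h'.1, h'.2⟩⟩

lemma cnt_singleton_le (x : Θ) (n : ℕ) : L.cnt {x} n ≤ 1 := by
  unfold cnt
  have : ({x} ∩ {θ | L.lev θ ≤ n}).ncard ≤ ({x} : Set Θ).ncard :=
    ncard_le_ncard inter_subset_left (finite_singleton x)
  rw [ncard_singleton] at this
  exact_mod_cast this

lemma cnt_insert_le (x : Θ) (W : Set Θ) (n : ℕ) : L.cnt (insert x W) n ≤ L.cnt W n + 1 := by
  have := L.cnt_union_le {x} W n
  have h2 := L.cnt_singleton_le x n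
  rw [singleton_union] at this
  linarith

lemma cnt_insert {x : Θ} {W : Set Θ} (hx : x ∉ W) {n : ℕ} (hn : L.lev x ≤ n) :
    L.cnt (insert x W) n = L.cnt W n + 1 := by
  have := L.cnt_union (Z := {x}) (W := W) (by simpa using hx) n
  rw [singleton_union] at this
  have h2 : L.cnt {x} n = 1 := by
    unfold cnt
    rw [singleton_inter_of_mem (by exact hn)]
    simp
  linarith

lemma cnt_le_sum (Z : Set Θ) (n : ℕ) : L.cnt Z n ≤ ∑ i ∈ Finset.range (n + 1), L.bc Z i := by
  induction n with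
  | zero =>
    simp only [zero_add, Finset.range_one, Finset.sum_singleton]
    unfold cnt bc
    simp
  | succ n ih =>
    rw [Finset.sum_range_succ]
    have : L.cnt Z (n + 1) ≤ L.cnt Z n + L.bc Z (n + 1) := by
      unfold cnt bc
      have : Z ∩ {θ | L.lev θ ≤ n + 1} = Z ∩ {θ | L.lev θ ≤ n} ∪ Z ∩ {θ | L.lev θ = n + 1} := by
        ext θ; simp only [mem_inter_iff, mem_ofPred_eq, mem_union]
        constructor
        · rintro ⟨h1, h2⟩
          rcases Nat.lt_or_eq_of_le h2 with h | h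
          · exact Or.inl ⟨h1, by omega⟩
          · exact Or.inr ⟨h1, h⟩
        · rintro (⟨h1, h2⟩ | ⟨h1, h2⟩) <;> exact ⟨h1, by omega⟩
      rw [this]
      exact_mod_cast ncard_union_le _ _
    linarith

variable {L}

lemma Null.mono {Z W : Set Θ} (hW : L.Null W) (h : Z ⊆ W) : L.Null Z := fun ε hε =>
  (hW ε hε).mono fun n hn => (L.bc_mono h n).trans hn

lemma Null.union {Z W : Set Θ} (hZ : L.Null Z) (hW : L.Null W) : L.Null (Z ∪ W) := by
  intro ε hε
  filter_upwards [hZ (ε / 2) (by linarith), hW (ε / 2) (by linarith)] with n h1 h2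
  linarith [L.bc_union_le Z W n]

lemma null_singleton (x : Θ) : L.Null {x} := by
  intro ε hε
  filter_upwards [ev_le_bb 1 hε] with n hn
  linarith [L.bc_le_cnt {x} n, L.cnt_singleton_le x n]

lemma null_empty : L.Null ∅ := by
  intro ε hε
  refine Eventually.of_forall fun n => ?_
  have := bb_pos n
  unfold bc
  simp only [empty_inter, ncard_empty, CharP.cast_eq_zero]
  positivity

lemma Null.cnt {Z : Set Θ} (hZ : L.Null Z) {ε : ℝ} (hε : 0 < ε) :
    ∀ᶠ n in atTop, L.cnt Z n ≤ ε * bb n := by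
  obtain ⟨N, hN⟩ := eventually_atTop.1 (hZ (ε / 4) (by linarith))
  set C := ∑ i ∈ Finset.range N, L.bc Z i with hC
  have key : ∀ n, ∑ i ∈ Finset.range (n + 1), L.bc Z i ≤
      C + ε / 4 * ∑ i ∈ Finset.range (n + 1), bb i := by
    intro n
    rw [Finset.mul_sum]
    calc ∑ i ∈ Finset.range (n + 1), L.bc Z i
        ≤ ∑ i ∈ Finset.range (n + 1), ((if i < N then L.bc Z i else 0) + ε / 4 * bb i) := by
          refine Finset.sum_le_sum fun i _ => ?_
          have := bb_pos i
          split_ifs with h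
          · have : 0 ≤ ε / 4 * bb i := by positivity
            linarith
          · simpa using hN i (by omega)
      _ = ∑ i ∈ Finset.range (n + 1), (if i < N then L.bc Z i else 0) +
            ∑ i ∈ Finset.range (n + 1), ε / 4 * bb i := Finset.sum_add_distrib
      _ ≤ _ := by
          gcongr
          rw [← Finset.sum_filter]
          refine Finset.sum_le_sum_of_subset_of_nonneg ?_ fun i _ _ => L.bc_nonneg Z i
          intro i hi
          simp only [Finset.mem_filter, Finset.mem_range] at hi ⊢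
          exact hi.2
  filter_upwards [ev_le_bb C (ε := ε / 2) (by linarith)] with n hn
  have h1 := L.cnt_le_sum Z n
  have h2 := key n
  have h3 := bb_sum n
  have h4 : ε / 4 * ∑ i ∈ Finset.range (n + 1), bb i ≤ ε / 4 * (2 * bb n) := by gcongr
  linarith

/-- Thinning: a set of positive upper density has a null subset that is still visible at
prescribed scales. -/
lemma thin {D : Set Θ} (hD : ¬ L.Null D) (M : ℕ → ℕ) :
    ∃ Z ⊆ D, L.Null Z ∧ ∀ᶠ k : ℕ in atTop, ∃ n, M k ≤ n ∧ 2 * bb n ≤ k * L.cnt Z n := by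
  simp only [Null, not_forall, not_eventually, not_le] at hD
  obtain ⟨ε, hε, hfr⟩ := hD
  obtain ⟨φ, hφ, hP⟩ := extraction_forall_of_frequently
    (P := fun k n => M k ≤ n ∧ ε * bb n < L.bc D n)
    (fun k => (hfr.and_eventually (eventually_ge_atTop (M k))).mono fun n hn => ⟨hn.2, hn.1⟩)
  have hex : ∀ k : ℕ, ∃ Y ⊆ D ∩ {θ | L.lev θ = φ k},
      Y.ncard = min (D ∩ {θ | L.lev θ = φ k}).ncard ⌈2 * bb (φ k) / k⌉₊ := fun k =>
    Set.exists_subset_card_eq (min_le_left _ _)
  choose Y hY hYc using hex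
  have hZ : ∀ k, (⋃ k, Y k) ∩ {θ | L.lev θ = φ k} = Y k := by
    intro k
    ext θ
    simp only [mem_inter_iff, mem_iUnion, mem_ofPred_eq]
    constructor
    · rintro ⟨⟨k', hk'⟩, h2⟩
      have := (hY k' hk').2
      simp only [mem_ofPred_eq] at this
      have : k' = k := hφ.injective (this.symm.trans h2)
      exact this ▸ hk'
    · intro h
      exact ⟨⟨k, h⟩, (hY k h).2⟩
  refine ⟨⋃ k, Y k, iUnion_subset fun k => (hY k).trans inter_subset_left, ?_, ?_⟩
  · intro δ hδ
    obtain ⟨K, hK⟩ := exists_nat_gt (4 / δ)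
    have hK0 : (0:ℝ) < K := lt_trans (by positivity) hK
    filter_upwards [eventually_ge_atTop (φ K), ev_le_bb 1 (ε := δ / 2) (by linarith)] with n hn h1
    by_cases h : ∃ k, φ k = n
    · obtain ⟨k, rfl⟩ := h
      have hk : K ≤ k := hφ.le_iff_le.1 hn
      have hk' : (K:ℝ) ≤ k := by exact_mod_cast hk
      have hb := bb_pos (φ k)
      unfold bc
      rw [hZ k, hYc k]
      have h2 : ((min (D ∩ {θ | L.lev θ = φ k}).ncard ⌈2 * bb (φ k) / k⌉₊ : ℕ) : ℝ) ≤
          ⌈2 * bb (φ k) / k⌉₊ := by exact_mod_cast min_le_right _ _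
      have h3 : (⌈2 * bb (φ k) / k⌉₊ : ℝ) < 2 * bb (φ k) / k + 1 :=
        Nat.ceil_lt_add_one (by positivity)
      have h4 : 2 * bb (φ k) / k ≤ δ / 2 * bb (φ k) := by
        rw [div_le_iff₀ (by linarith)]
        rw [div_lt_iff₀ hδ] at hK
        have : 4 ≤ δ * k := by nlinarith
        nlinarith
      linarith
    · have : (⋃ k, Y k) ∩ {θ | L.lev θ = n} = ∅ := by
        ext θ
        simp only [mem_inter_iff, mem_iUnion, mem_ofPred_eq, mem_empty_iff_false, iff_false,
          not_and, forall_exists_index]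
        intro k hk h2
        exact h ⟨k, ((hY k hk).2 : L.lev θ = φ k).symm.trans h2⟩
      unfold bc
      rw [this]
      have := bb_pos n
      simp only [ncard_empty, CharP.cast_eq_zero]
      positivity
  · obtain ⟨K, hK⟩ := exists_nat_gt (2 / ε)
    have hK0 : (0:ℝ) < K := lt_trans (by positivity) hK
    filter_upwards [eventually_ge_atTop K] with k hk
    refine ⟨φ k, (hP k).1, ?_⟩
    have hk' : (K:ℝ) ≤ k := by exact_mod_cast hk
    have hb := bb_pos (φ k)
    have h1 := L.bc_le_cnt (⋃ k, Y k) (φ k)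
    have h2 : 2 * bb (φ k) / k ≤ L.bc (⋃ k, Y k) (φ k) := by
      unfold bc
      rw [hZ k, hYc k, Nat.cast_min]
      refine le_min ?_ (Nat.le_ceil _)
      have h3 := (hP k).2
      unfold bc at h3
      have h4 : 2 * bb (φ k) / k ≤ ε * bb (φ k) := by
        rw [div_le_iff₀ (by linarith)]
        rw [div_lt_iff₀ hε] at hK
        have : 2 ≤ ε * k := by nlinarith
        nlinarith
      linarith
    rw [div_le_iff₀ (by linarith)] at h2
    nlinarith

end Lev

end Vale.Agent.P068
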