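import Vale.Agent.P068.Unif
import Vale.Agent.P068.Defs

/-! The double ray of uniform matroids. -/

open Set Filter
open scoped Matroid

namespace Vale.Agent.P068

lemma ray {V : Type} (W : V → Set Th) (t : V → Prop) (nxt : V → V)
    (hS : ∀ v, t v → Ge (W v) 0) (hI : ∀ v, ¬ t v → ¬ Ge (W v) 1)
    (hn : ∀ v, pt false (W (nxt v)) = (pt true (W v))ᶜ)
    (hSI : ∀ v, t v → ¬ t (nxt v) → pt false (W (nxt v)) = univ)
    (hIS : ∀ v, ¬ t v → t (nxt v) → pt false (W (nxt v)) = ∅) (v : V) :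
    t v ↔ pt false (W v) ∈ VV := by
  constructor
  · intro ht
    by_contra hv
    obtain ⟨_, ⟨u, ⟨hu1, hu2⟩, rfl⟩, hmin⟩ := prec_wf.has_min
      ((fun u => pt false (W u)) '' {u | t u ∧ pt false (W u) ∉ VV}) ⟨_, v, ⟨ht, hv⟩, rfl⟩
    have hp := descend_small hu2 (hS u hu1)
    rw [← hn] at hp
    refine hmin _ ⟨nxt u, ⟨?_, hp.small⟩, rfl⟩ hp
    by_contra h
    exact hp.small (hSI u hu1 h ▸ univ_mem)
  · intro hv
    by_contra ht
    obtain ⟨_, ⟨u, ⟨hu1, hu2⟩, rfl⟩, hmin⟩ := prec_wf.has_min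
      ((fun u => (pt false (W u))ᶜ) '' {u | ¬ t u ∧ pt false (W u) ∈ VV}) ⟨_, v, ⟨ht, hv⟩, rfl⟩
    have hp := descend_large hu2 (hI u hu1)
    rw [← compl_compl (pt true (W u)), ← hn] at hp
    have hl : pt false (W (nxt u)) ∈ VV := Ultrafilter.compl_notMem_iff.1 hp.small
    refine hmin _ ⟨nxt u, ⟨fun h => ?_, hl⟩, rfl⟩ hp
    exact Ultrafilter.empty_notMem (hIS u hu1 h ▸ hl)

/-- Vertices of one colour: a side and a position. -/
abbrev Io : Type := Bool × ℕ

/-- Edge bundles. -/
abbrev Bu : Type := Io × Bool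

/-- How the vertices of the second colour see the bundles. -/
def shift : Io × Bool ≃ Bu where
  toFun
    | ((false, 0), false) => ((true, 0), false)
    | ((false, j + 1), false) => ((false, j), true)
    | ((false, j), true) => ((false, j), false)
    | ((true, j), false) => ((true, j), true)
    | ((true, j), true) => ((true, j + 1), false)
  invFun
    | ((true, 0), false) => ((false, 0), false)
    | ((false, j), true) => ((false, j + 1), false)
    | ((false, j), false) => ((false, j), true)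
    | ((true, j), true) => ((true, j), false)
    | ((true, j + 1), false) => ((true, j), true)
  left_inv := by rintro ⟨⟨_ | _, _ | j⟩, _ | _⟩ <;> rfl
  right_inv := by rintro ⟨⟨_ | _, _ | j⟩, _ | _⟩ <;> rfl

/-- The trace of a set of edges at a vertex. -/
def pull (e : Io × Bool ≃ Bu) (i : Io) (W : Set (Bu × Om)) : Set Th :=
  {p | (e (i, p.1), p.2) ∈ W}

lemma pull_mono (e : Io × Bool ≃ Bu) (i : Io) {U W : Set (Bu × Om)} (h : U ⊆ W) :
    pull e i U ⊆ pull e i W := fun _ hp => h hp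

lemma pull_compl (e : Io × Bool ≃ Bu) (i : Io) (W : Set (Bu × Om)) :
    pull e i Wᶜ = (pull e i W)ᶜ := rfl

/-- The direct sum of copies of the uniform matroid. -/
def MM (e : Io × Bool ≃ Bu) : Matroid (Bu × Om) :=
  (Matroid.sum' fun _ : Io => UM).mapEquiv
    ((Equiv.prodAssoc Io Bool Om).symm.trans (e.prodCongr (Equiv.refl Om)))

lemma pull_eq (e : Io × Bool ≃ Bu) (i : Io) (W : Set (Bu × Om)) :
    Prod.mk i ⁻¹' (((Equiv.prodAssoc Io Bool Om).symm.trans
      (e.prodCongr (Equiv.refl Om))).symm '' W) = pull e i W := by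
  rw [Equiv.image_eq_preimage_symm]
  rfl

lemma MM_indep {e : Io × Bool ≃ Bu} {W : Set (Bu × Om)} :
    (MM e).Indep W ↔ ∀ i, ¬ Ge (pull e i W) 1 := by
  simp only [MM, Matroid.mapEquiv_indep_iff, Matroid.sum'_indep_iff, pull_eq, UM_indep]

lemma MM_isBase {e : Io × Bool ≃ Bu} {W : Set (Bu × Om)} :
    (MM e).IsBase W ↔ ∀ i, ¬ Ge (pull e i W) 1 ∧ Ge (pull e i W) 0 := by
  simp only [MM, Matroid.mapEquiv_isBase_iff, Matroid.sum'_isBase_iff, pull_eq]
  exact forall_congr' fun i => by rw [Matroid.isBase_iff_maximal_indep]; exact maximal_iff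

lemma MM_ground (e : Io × Bool ≃ Bu) : (MM e).E = univ := by
  simp only [MM, Matroid.mapEquiv_ground_eq, Matroid.sum'_ground_eq, UM_ground]
  have : (⋃ i : Io, Prod.mk i '' (univ : Set Th)) = univ := by
    ext ⟨i, p⟩; simp
  rw [this, image_univ, Equiv.range_eq_univ]

lemma MM_dual (e : Io × Bool ≃ Bu) : (MM e)✶ = MM e := by
  refine Matroid.ext_isBase rfl fun B hB => ?_
  rw [Matroid.dual_isBase_iff (M := MM e) hB, MM_ground, ← compl_eq_univ_sdiff, MM_isBase, MM_isBase]
  refine forall_congr' fun i => ?_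
  rw [pull_compl, ge_compl, ge_compl]
  simp [and_comm]

lemma closure_cases {e : Io × Bool ≃ Bu} {B : Set (Bu × Om)} (hB : (MM e).Indep B)
    {i : Io} {p : Th} (h : p ∈ pull e i ((MM e).closure B)) :
    Ge (pull e i B) 0 ∨ p ∈ pull e i B := by
  by_contra hcon
  push Not at hcon
  refine hcon.2 ((hB.mem_closure_iff'.1 h).2 (MM_indep.2 fun i' => ?_))
  by_cases hi : i' = i
  · subst hi
    have : pull e i' (insert (e (i', p.1), p.2) B) = insert p (pull e i' B) := by
      ext q
      simp [pull, Prod.ext_iff]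
    rw [this, ge_insert hcon.2]
    exact hcon.1
  · have : pull e i' (insert (e (i, p.1), p.2) B) = pull e i' B := by
      ext q
      simp [pull, hi]
    rw [this]
    exact MM_indep.1 hB i'

lemma absorb {B W : Set Th} (h0 : Ge B 0) (h1 : ¬ Ge W 1) (hBW : B ⊆ W) : W ⊆ B := by
  intro p hp
  by_contra h
  exact h1 (((ge_insert h).2 h0).mono (insert_subset hp hBW) le_rfl)

/-- The next vertex along a ray. -/
def nx : Io ⊕ Io → Io ⊕ Io
  | Sum.inl (true, j) => Sum.inr (true, j)
  | Sum.inl (false, j) => Sum.inr (false, j + 1)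
  | Sum.inr (true, j) => Sum.inl (true, j + 1)
  | Sum.inr (false, j) => Sum.inl (false, j)

lemma no_orientation (O : Set (Bu × Om)) (tM tN : Io → Prop)
    (hM1 : ∀ i, tM i → Ge (pull (Equiv.refl _) i O) 0)
    (hM2 : ∀ i, ¬ tM i → ¬ Ge (pull (Equiv.refl _) i O) 1)
    (hN1 : ∀ i, tN i → Ge (pull shift i Oᶜ) 0)
    (hN2 : ∀ i, ¬ tN i → ¬ Ge (pull shift i Oᶜ) 1)
    (h1 : ∀ i s i' s' ω, (i, s) = shift (i', s') → tM i → ¬ tN i' → ((i, s), ω) ∉ O)
    (h2 : ∀ i s i' s' ω, (i, s) = shift (i', s') → ¬ tM i → tN i' → ((i, s), ω) ∈ O) : False := by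
  have key := ray (Sum.elim (fun i => pull (Equiv.refl _) i O) (fun i => pull shift i Oᶜ))
    (Sum.elim tM tN) nx (by rintro (i | i); exacts [hM1 i, hN1 i])
    (by rintro (i | i); exacts [hM2 i, hN2 i])
    (by
      rintro (⟨_ | _, j⟩ | ⟨_ | _, j⟩)
      · rfl
      · rfl
      · cases j <;> exact (compl_compl (pt false (pull (Equiv.refl _) (false, _) O))).symm
      · exact (compl_compl (pt false (pull (Equiv.refl _) (true, j + 1) O))).symm)
    (by
      rintro (⟨_ | _, j⟩ | ⟨_ | _, j⟩) ha hb <;> refine eq_univ_of_forall fun ω => ?_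
      · exact h1 (false, j) true (false, j + 1) false ω rfl ha hb
      · exact h1 (true, j) true (true, j) false ω rfl ha hb
      · exact h2 (false, j) false (false, j) true ω (by cases j <;> rfl) hb ha
      · exact h2 (true, j + 1) false (true, j) true ω rfl hb ha)
    (by
      rintro (⟨_ | _, j⟩ | ⟨_ | _, j⟩) ha hb <;> refine eq_empty_of_forall_notMem fun ω => ?_
      · exact not_not.2 (h2 (false, j) true (false, j + 1) false ω rfl ha hb)
      · exact not_not.2 (h2 (true, j) true (true, j) false ω rfl ha hb)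
      · exact h1 (false, j) false (false, j) true ω (by cases j <;> rfl) hb ha
      · exact h1 (true, j + 1) false (true, j) true ω rfl hb ha)
  have k1 : tM (true, 0) ↔ pt false (pull (Equiv.refl _) (true, 0) O) ∈ VV :=
    key (Sum.inl (true, 0))
  have k2 : tN (false, 0) ↔ (pt false (pull (Equiv.refl _) (true, 0) O))ᶜ ∈ VV :=
    key (Sum.inr (false, 0))
  by_cases h : pt false (pull (Equiv.refl _) (true, 0) O) ∈ VV
  · obtain ⟨ω, hω⟩ := Ultrafilter.nonempty_of_mem h
    exact h1 (true, 0) false (false, 0) false ω rfl (k1.2 h)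
      (fun h' => Ultrafilter.compl_mem_iff_notMem.1 (k2.1 h') h) hω
  · have h' := Ultrafilter.compl_mem_iff_notMem.2 h
    obtain ⟨ω, hω⟩ := Ultrafilter.nonempty_of_mem h'
    exact hω (h2 (true, 0) false (false, 0) false ω rfl (fun h'' => h (k1.1 h'')) (k2.2 h'))

theorem not_intersection : ¬ SatisfiesIntersection univ (MM (Equiv.refl _)) (MM shift) := by
  rintro ⟨J, JM, JN, hM, hN, hJ, hd, hcl⟩
  have hJM : JM ⊆ J := hJ ▸ subset_union_left
  have hJN : JN ⊆ J := hJ ▸ subset_union_right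
  refine no_orientation J (fun i => Ge (pull (Equiv.refl _) i JM) 0)
    (fun i => ¬ Ge (pull shift i JN) 0) (fun i h => h.mono (pull_mono _ _ hJM) le_rfl)
    (fun i _ => MM_indep.1 hM i) (fun i _ => ?_) (fun i h => ?_) ?_ ?_
  · rw [pull_compl, ge_compl]
    simpa using MM_indep.1 hN i
  · rw [pull_compl, ge_compl]
    simpa using (not_not.1 h).mono (pull_mono _ _ hJN) le_rfl
  · intro i s i' s' ω he ha hb hx
    have a1 : ((i, s), ω) ∈ JM :=
      absorb ha (MM_indep.1 hM i) (pull_mono _ _ hJM) (show (s, ω) ∈ pull _ i J from hx)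
    have a2 : (shift (i', s'), ω) ∈ JN :=
      absorb (not_not.1 hb) (MM_indep.1 hN i') (pull_mono _ _ hJN)
        (show (s', ω) ∈ pull shift i' J from (he ▸ hx : (shift (i', s'), ω) ∈ J))
    exact hd.notMem_of_mem_left a1 (he ▸ a2)
  · intro i s i' s' ω he ha hb
    have : ((i, s), ω) ∈ (MM (Equiv.refl _)).closure JM ∪ (MM shift).closure JN :=
      hcl ▸ mem_univ _
    rcases this with h | h
    · exact hJM ((closure_cases (hM.subset hJM) (i := i) (p := (s, ω)) h).resolve_left ha)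
    · rw [he] at h ⊢
      exact hJN ((closure_cases (hN.subset hJN) (i := i') (p := (s', ω)) h).resolve_left hb)

lemma vertex_cases {e : Io × Bool ≃ Bu} {P C S I : Set (Bu × Om)} (hPC : P ∪ C = univ)
    (hd : Disjoint P C) (hS : S ⊆ P) (hcl : (MM e ↾ P).closure S = P)
    (hI : (contractOnto (MM e) C).Indep I) :
    ∃ t : Io → Prop, (∀ i, t i → Ge (pull e i S) 0 ∧ ∀ p, p ∉ pull e i I) ∧
      ∀ i, ¬ t i → pull e i P ⊆ pull e i S ∧ ¬ Ge (pull e i (P ∪ I)) 1 := by
  rw [Matroid.restrict_closure_eq _ hS (by simp [MM_ground])] at hcl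
  obtain ⟨B, hB⟩ := (MM e).exists_isBasis S (by simp [MM_ground])
  have hPB : P ⊆ (MM e).closure B := by
    rw [hB.closure_eq_closure, ← hcl]
    exact inter_subset_left
  have hBP : (MM e).IsBasis B P :=
    hB.indep.isBasis_of_subset_of_subset_closure (hB.subset.trans hS) hPB
  have hC : C = (MM e)✶.E \ P := by
    rw [Matroid.dual_ground, MM_ground, ← hPC, union_sdiff_cancel_left hd.le_bot]
  have hc : contractOnto (MM e) C = MM e ／ P := by
    rw [hC]; rfl
  rw [hc, hBP.contract_indep_iff] at hI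
  refine ⟨fun i => Ge (pull e i B) 0, fun i h => ⟨h.mono (pull_mono _ _ hB.subset) le_rfl,
    fun p hp => ?_⟩, fun i h => ?_⟩
  · have := absorb h (MM_indep.1 hI.1 i) (pull_mono _ _ subset_union_right)
      (pull_mono _ _ subset_union_left hp)
    exact hI.2.notMem_of_mem_left (hBP.subset this) hp
  · have h1 : pull e i P ⊆ pull e i B := fun p hp =>
      (closure_cases hB.indep (pull_mono _ _ hPB hp)).resolve_left h
    refine ⟨h1.trans (pull_mono _ _ hB.subset), fun h' => MM_indep.1 hI.1 i (h'.mono ?_ le_rfl)⟩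
    rintro p (hp | hp)
    · exact Or.inr (h1 hp)
    · exact Or.inl hp

theorem not_packing : ¬ HasPackingCovering univ ![MM (Equiv.refl _), MM shift] := by
  rintro ⟨P, C, S, I, hPC, hd, hS, hI, hdS, hcl, hind, hcov⟩
  obtain ⟨tM, hM1, hM2⟩ := vertex_cases hPC hd (hS 0) (hcl 0) (hind 0)
  obtain ⟨tN, hN1, hN2⟩ := vertex_cases hPC hd (hS 1) (hcl 1) (hind 1)
  have h01 := hdS 0 1 (by decide)
  have hcases : ∀ x, x ∈ P ∨ x ∈ I 0 ∨ x ∈ I 1 := by
    intro x
    have : x ∈ P ∪ C := hPC ▸ mem_univ x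
    rcases this with h | h
    · exact Or.inl h
    · rw [← hcov, mem_iUnion] at h
      exact Or.inr (Fin.exists_fin_two.1 h)
  refine no_orientation (P \ S 1 ∪ I 0) tM tN
    (fun i h => (hM1 i h).1.mono (pull_mono _ _ ?_) le_rfl)
    (fun i h h' => (hM2 i h).2 (h'.mono (pull_mono _ _ ?_) le_rfl))
    (fun i h => (hN1 i h).1.mono (pull_mono _ _ ?_) le_rfl)
    (fun i h h' => (hN2 i h).2 (h'.mono (pull_mono _ _ ?_) le_rfl)) ?_ ?_
  · exact fun x hx => Or.inl ⟨hS 0 hx, h01.notMem_of_mem_left hx⟩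
  · exact union_subset_union_left _ sdiff_subset
  · rintro x hx (h | h)
    · exact h.2 hx
    · exact hd.notMem_of_mem_left (hS 1 hx) (hI 0 h)
  · intro x hx
    rcases hcases x with h | h | h
    · exact Or.inl h
    · exact absurd (Or.inr h) hx
    · exact Or.inr h
  · rintro i s i' s' ω he ha hb (h | h)
    · rw [he] at h
      exact h.2 ((hN2 i' hb).1 (show (s', ω) ∈ pull shift i' P from h.1))
    · exact (hM1 i ha).2 (s, ω) h
  · intro i s i' s' ω he ha hb
    rcases hcases ((i, s), ω) with h | h | h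
    · exact Or.inl ⟨h, h01.notMem_of_mem_left
        ((hM2 i ha).1 (show (s, ω) ∈ pull (Equiv.refl _) i P from h))⟩
    · exact Or.inr h
    · rw [he] at h
      exact absurd h ((hN1 i' hb).2 (s', ω))

end Vale.Agent.P068
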