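import Vale.Agent.P068.Coarse

/-! A self-dual uniform matroid on `Th` with the rank property. -/

open Set Filter

namespace Vale.Agent.P068

/-- The family of reference sets. -/
def CC : Set (Set Th) := exists_family.choose

lemma CC_star {c : Set Th} (h : c ∈ CC) : Star c := exists_family.choose_spec.1 c h

lemma CC_eq {c c' : Set Th} (h : c ∈ CC) (h' : c' ∈ CC) (hn : LT.Null (c \ c')) : c = c' :=
  exists_family.choose_spec.2.1 c h c' h' hn

lemma CC_req {I X : Set Th} (h : Adm I X) :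
    ∃ c ∈ CC, LT.Null (c \ I) ∨ LT.Null (X \ c) ∨ (I ⊆ c ∧ c ⊆ X) :=
  exists_family.choose_spec.2.2 I X h

lemma ntrans {A B C : Set Th} (h1 : LT.Null (A \ B)) (h2 : LT.Null (B \ C)) : LT.Null (A \ C) :=
  (h1.union h2).mono (by intro x hx; by_cases h : x ∈ B <;> simp_all)

lemma nsub {A B : Set Th} (h : A ⊆ B) : LT.Null (A \ B) := by
  rw [sdiff_eq_empty.2 h]; exact Lev.null_empty

lemma ninsert (x : Th) (A : Set Th) : LT.Null (insert x A \ A) :=
  (Lev.null_singleton x).mono (by intro y hy; simp at hy ⊢; tauto)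

/-- Largeness of a set whose first part is small. -/
def Low (W : Set Th) (j : ℝ) : Prop :=
  ∃ c ∈ CC, LT.Null (c \ W) ∧ (LT.Null (W \ c) → LT.Fine c W j)

lemma Low.mono {W W' : Set Th} {j j' : ℝ} (h : Low W j) (hW : W ⊆ W') (hj : j' ≤ j) :
    Low W' j' := by
  obtain ⟨c, hc, h1, h2⟩ := h
  exact ⟨c, hc, ntrans h1 (nsub hW), fun h3 => (h2 (ntrans (nsub hW) h3)).mono hW hj⟩

lemma Low.of_insert {W : Set Th} {x : Th} {j : ℝ} (h : Low (insert x W) (j + 1)) : Low W j := by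
  obtain ⟨c, hc, h1, h2⟩ := h
  exact ⟨c, hc, ntrans h1 (ninsert x W), fun h3 => (h2 (ntrans (ninsert x W) h3)).of_insert⟩

lemma Low.insert {W : Set Th} {x : Th} {j : ℝ} (h : Low W j) (hx : x ∉ W) :
    Low (insert x W) (j + 1) := by
  obtain ⟨c, hc, h1, h2⟩ := h
  exact ⟨c, hc, ntrans h1 (nsub (subset_insert _ _)),
    fun h3 => (h2 (ntrans (nsub (subset_insert _ _)) h3)).insert hx⟩

lemma Low.large {W : Set Th} {j : ℝ} (h : Low W j) : pt true W ∈ VV := by
  obtain ⟨c, hc, h1, -⟩ := h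
  by_contra hW
  exact small_of_le hW h1 (CC_star hc).large

lemma Low.star {W : Set Th} {j : ℝ} (h : Low W j) (hW : pt false W ∉ VV) : Star W := by
  obtain ⟨c, hc, h1, -⟩ := h
  exact (CC_star hc).of_le h1 hW

lemma core {I X : Set Th} (hA : Adm I X) (h1 : ¬ Low I 1) (h0 : pt false X ∉ VV → Low X 0) :
    ∃ B, I ⊆ B ∧ B ⊆ X ∧ pt false B ∉ VV ∧ Low B 0 ∧ ¬ Low B 1 := by
  obtain ⟨c, hc, hreq⟩ := CC_req hA
  have hIX := hA.1
  have hI' : LT.Null (c \ I) → LT.Null (I \ c) ∧ ¬ LT.Fine c I 1 := by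
    intro h
    by_contra hcon
    exact h1 ⟨c, hc, h, fun h' => by tauto⟩
  have hX' : LT.Null (X \ c) → LT.Null (c \ X) ∧ LT.Fine c X 0 := by
    intro h
    obtain ⟨c0, hc0, h2, h3⟩ := h0 (small_of_le (CC_star hc).1 h)
    have := CC_eq hc0 hc (ntrans h2 h)
    subst this
    exact ⟨h2, h3 h⟩
  have hboth : LT.Null (I \ c) ∧ LT.Null (c \ X) := by
    rcases hreq with h | h | h
    · exact ⟨(hI' h).1, ntrans h (nsub hIX)⟩
    · exact ⟨ntrans (nsub hIX) h, (hX' h).1⟩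
    · exact ⟨nsub h.1, nsub h.2⟩
  set M := c ∩ X ∪ I with hM
  have hIM : I ⊆ M := subset_union_right
  have hMX : M ⊆ X := union_subset inter_subset_right hIX
  have hM1 : LT.Null (M \ c) := hboth.1.mono (by intro p hp; simp [hM] at hp ⊢; tauto)
  have hM2 : LT.Null (c \ M) := hboth.2.mono (by intro p hp; simp [hM] at hp ⊢; tauto)
  obtain ⟨X', hX1, hX2, hX3, hX4⟩ :
      ∃ X', M ⊆ X' ∧ X' ⊆ X ∧ LT.Null (X' \ c) ∧ LT.Fine c X' 0 := by
    by_cases h : LT.Null (X \ c)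
    · exact ⟨X, hMX, subset_rfl, h, (hX' h).2⟩
    · obtain ⟨Z, hZ1, hZ2, hZ3⟩ := Lev.up hM1 hM2 (D := X \ M) (fun h' => h (ntrans h' hM1))
        disjoint_sdiff_right
      refine ⟨M ∪ Z, subset_union_left, union_subset hMX (hZ1.trans sdiff_subset),
        (hM1.union hZ2).mono ?_, hZ3⟩
      intro p hp; simp at hp ⊢; tauto
  obtain ⟨I', hI1, hI2, hI3, hI4⟩ :
      ∃ I', I ⊆ I' ∧ I' ⊆ M ∧ LT.Null (c \ I') ∧ ¬ LT.Fine c I' 1 := by
    by_cases h : LT.Null (c \ I)
    · exact ⟨I, subset_rfl, hIM, h, (hI' h).2⟩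
    · obtain ⟨Z, hZ1, hZ2, hZ3⟩ := Lev.down hM1 hM2 (D := M \ I) (fun h' => h (ntrans hM2 h'))
        sdiff_subset
      refine ⟨M \ Z, fun p hp => ⟨hIM hp, fun h' => (hZ1 h').2 hp⟩, sdiff_subset,
        (hM2.union hZ2).mono ?_, hZ3⟩
      intro p hp; simp at hp ⊢; tauto
  obtain ⟨B, hB1, hB2, hB3, hB4⟩ := Lev.fine_interval (hI2.trans hX1) hI3 hX3 hI4 hX4
  have hBc : LT.Null (B \ c) := ntrans (nsub hB2) hX3
  refine ⟨B, hI1.trans hB1, hB2.trans hX2, small_of_le (CC_star hc).1 hBc,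
    ⟨c, hc, ntrans hI3 (nsub hB1), fun _ => hB3⟩, ?_⟩
  rintro ⟨c', hc', h2, h3⟩
  have := CC_eq hc' hc (ntrans h2 hBc)
  subst this
  exact hB4 (h3 hBc)

/-- The set `W` has size at least that of a base plus `j`. -/
def Ge (W : Set Th) (j : ℝ) : Prop :=
  (pt false W ∈ VV → ¬ Low Wᶜ (1 - j)) ∧ (pt false W ∉ VV → Low W j)

lemma ge_small {W : Set Th} {j : ℝ} (h : pt false W ∉ VV) : Ge W j ↔ Low W j := by
  simp [Ge, h]

lemma ge_large {W : Set Th} {j : ℝ} (h : pt false W ∈ VV) : Ge W j ↔ ¬ Low Wᶜ (1 - j) := by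
  simp [Ge, h]

lemma ge_compl {W : Set Th} {j : ℝ} : Ge Wᶜ j ↔ ¬ Ge W (1 - j) := by
  by_cases h : pt false W ∈ VV
  · rw [ge_large h, ge_small (W := Wᶜ) (Ultrafilter.compl_notMem_iff.2 h)]
    simp
  · rw [ge_small h, ge_large (W := Wᶜ) (Ultrafilter.compl_mem_iff_notMem.2 h)]
    simp

lemma Ge.mono {W W' : Set Th} {j j' : ℝ} (h : Ge W j) (hW : W ⊆ W') (hj : j' ≤ j) :
    Ge W' j' := by
  by_cases h1 : pt false W ∈ VV
  · have h2 : pt false W' ∈ VV := mem_of_superset h1 (pt_mono _ hW)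
    rw [ge_large h1] at h
    rw [ge_large h2]
    exact fun h' => h (h'.mono (compl_subset_compl.2 hW) (by linarith))
  · rw [ge_small h1] at h
    by_cases h2 : pt false W' ∈ VV
    · rw [ge_large h2]
      intro h'
      have h3 : pt true W' ∈ VV := mem_of_superset h.large (pt_mono _ hW)
      exact Ultrafilter.compl_mem_iff_notMem.1 h'.large h3
    · rw [ge_small h2]
      exact h.mono hW hj

lemma large_insert {W : Set Th} {x : Th} : pt false (insert x W) ∈ VV ↔ pt false W ∈ VV :=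
  ⟨fun h => by
    by_contra h'
    exact small_of_le h' (ninsert x W) h,
  fun h => mem_of_superset h (pt_mono _ (subset_insert _ _))⟩

lemma ge_insert {W : Set Th} {x : Th} (hx : x ∉ W) : Ge (insert x W) 1 ↔ Ge W 0 := by
  by_cases h : pt false W ∈ VV
  · rw [ge_large h, ge_large (large_insert.2 h)]
    have e : Wᶜ = insert x (insert x W)ᶜ := by
      ext p
      by_cases hp : p = x
      · simp [hp, hx]
      · simp [hp]
    rw [sub_self, sub_zero, e]
    refine not_congr ⟨fun h' => ?_, fun h' => Low.of_insert (by simpa using h')⟩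
    simpa using h'.insert (x := x) (by simp)
  · rw [ge_small h, ge_small (fun h' => h (large_insert.1 h'))]
    exact ⟨fun h' => Low.of_insert (by simpa using h'), fun h' => by simpa using h'.insert hx⟩

lemma not_ge_empty (j : ℝ) : ¬ Ge ∅ j := by
  have h : ∀ s, pt s ∅ ∉ VV := fun s => Ultrafilter.empty_notMem
  rw [ge_small (h false)]
  exact fun h' => h true h'.large

lemma interval_aux {I X : Set Th} (hIX : I ⊆ X) (h1 : ¬ Ge I 1) (h0 : Ge X 0)
    (hI : pt false I ∉ VV) (hX : pt false X ∈ VV → pt true X ∈ VV) :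
    ∃ B, I ⊆ B ∧ B ⊆ X ∧ Ge B 0 ∧ ¬ Ge B 1 := by
  have hA : Adm I X := by
    refine ⟨hIX, ?_⟩
    by_cases h : pt false X ∈ VV
    · exact Or.inr ⟨hI, h, hX h⟩
    · exact Or.inl (((ge_small h).1 h0).star h)
  obtain ⟨B, hB1, hB2, hB3, hB4, hB5⟩ := core hA (by rwa [← ge_small hI])
    (fun h => (ge_small h).1 h0)
  exact ⟨B, hB1, hB2, (ge_small hB3).2 hB4, by rwa [ge_small hB3]⟩

lemma interval {I X : Set Th} (hIX : I ⊆ X) (h1 : ¬ Ge I 1) (h0 : Ge X 0) :
    ∃ B, I ⊆ B ∧ B ⊆ X ∧ Ge B 0 ∧ ¬ Ge B 1 := by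
  by_cases h : pt false I ∉ VV ∧ (pt false X ∈ VV → pt true X ∈ VV)
  · exact interval_aux hIX h1 h0 h.1 h.2
  · have hXA : pt false X ∈ VV := by
      by_contra h'
      exact h ⟨fun h'' => h' (mem_of_superset h'' (pt_mono _ hIX)), fun h'' => absurd h'' h'⟩
    obtain ⟨B, hB1, hB2, hB3, hB4⟩ := interval_aux (I := Xᶜ) (X := Iᶜ) (compl_subset_compl.2 hIX)
      (by rw [ge_compl]; simpa using h0) (by rw [ge_compl]; simpa using h1)
      (Ultrafilter.compl_notMem_iff.2 hXA) (fun h' => by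
        have h2 : pt false I ∉ VV := Ultrafilter.compl_mem_iff_notMem.1 h'
        refine Ultrafilter.compl_mem_iff_notMem.2 fun h3 => h ⟨h2, fun _ => ?_⟩
        exact mem_of_superset h3 (pt_mono _ hIX))
    refine ⟨Bᶜ, subset_compl_comm.1 hB2, compl_subset_comm.1 hB1, ?_, ?_⟩
    · rw [ge_compl]; simpa using hB4
    · rw [ge_compl]; simpa using hB3

lemma maximal_iff {B : Set Th} : Maximal (fun W => ¬ Ge W 1) B ↔ ¬ Ge B 1 ∧ Ge B 0 := by
  constructor
  · intro h
    refine ⟨h.prop, ?_⟩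
    by_contra h0
    by_cases hB : ∃ x, x ∉ B
    · obtain ⟨x, hx⟩ := hB
      exact hx (h.le_of_ge (y := insert x B) (by rwa [ge_insert hx]) (subset_insert _ _)
        (mem_insert _ _))
    · push Not at hB
      have := h.prop
      rw [eq_univ_of_forall hB, ← compl_empty, ge_compl] at this
      exact not_ge_empty _ (not_not.1 this)
  · rintro ⟨h1, h0⟩
    refine ⟨h1, fun W hW hBW x hx => ?_⟩
    by_contra hxB
    exact hW (((ge_insert hxB).2 h0).mono (insert_subset hx hBW) le_rfl)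

/-- The uniform matroid. -/
def UM : Matroid Th := IndepMatroid.matroid
  { E := univ
    Indep := fun W => ¬ Ge W 1
    indep_empty := not_ge_empty 1
    indep_subset := fun _ _ hJ hIJ hI => hJ (hI.mono hIJ le_rfl)
    indep_aug := by
      intro I B hI hIm hB
      rw [maximal_iff] at hIm hB
      have h0 : ¬ Ge I 0 := fun h => hIm ⟨hI, h⟩
      obtain ⟨x, hxB, hxI⟩ : ∃ x ∈ B, x ∉ I := by
        by_contra hcon
        push Not at hcon
        exact h0 (hB.2.mono hcon le_rfl)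
      exact ⟨x, ⟨hxB, hxI⟩, by rwa [ge_insert hxI]⟩
    indep_maximal := by
      intro X _ I hI hIX
      by_cases h0 : Ge X 0
      · obtain ⟨B, hB1, hB2, hB3, hB4⟩ := interval hIX hI h0
        exact ⟨B, hB1, ⟨hB4, hB2⟩, fun W hW hBW => (maximal_iff.2 ⟨hB4, hB3⟩).le_of_ge hW.1 hBW⟩
      · exact ⟨X, hIX, ⟨fun h => h0 (h.mono subset_rfl zero_le_one), subset_rfl⟩,
          fun W hW _ => hW.2⟩
    subset_ground := fun _ _ => subset_univ _ }

lemma UM_indep {W : Set Th} : UM.Indep W ↔ ¬ Ge W 1 := Iff.rfl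

lemma UM_ground : UM.E = univ := rfl

lemma descend_small {W : Set Th} (h : pt false W ∉ VV) (h0 : Ge W 0) :
    prec (pt true W)ᶜ (pt false W) := (((ge_small h).1 h0).star h).2

lemma descend_large {W : Set Th} (h : pt false W ∈ VV) (h1 : ¬ Ge W 1) :
    prec (pt true W) (pt false W)ᶜ := by
  have := descend_small (W := Wᶜ) (Ultrafilter.compl_notMem_iff.2 h)
    (by rw [ge_compl]; simpa using h1)
  simpa [pt_compl] using this

end Vale.Agent.P068
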